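import Mathlib

/-!
Abstract interpolation layer: averaging operators on functions of a solution set.
-/

namespace Vale.Agent.Lib.P170

open Finset

set_option linter.unusedSectionVars false

variable {Ω : Type*} [DecidableEq Ω]

/-- The averaging operator attached to a finite family of constraints `sat : X → Finset Ω`:
`(avgOp sat f) S` is the average of `f (S ∩ sat x)` over `x : X`. -/
noncomputable def avgOp {X : Type*} [Fintype X] (sat : X → Finset Ω) :
    Module.End ℝ (Finset Ω → ℝ) where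
  toFun f := fun S => (Fintype.card X : ℝ)⁻¹ * ∑ x, f (S ∩ sat x)
  map_add' f g := by
    funext S
    simp [Finset.sum_add_distrib, mul_add]
  map_smul' c f := by
    funext S
    simp [Finset.mul_sum, mul_left_comm]

lemma avgOp_apply {X : Type*} [Fintype X] (sat : X → Finset Ω) (f : Finset Ω → ℝ) (S : Finset Ω) :
    avgOp sat f S = (Fintype.card X : ℝ)⁻¹ * ∑ x, f (S ∩ sat x) := rfl

/-- constant function one -/
def cOne : Finset Ω → ℝ := fun _ => 1

/-- indicator of nonemptiness -/
noncomputable def eInd : Finset Ω → ℝ := fun S => if S.Nonempty then 1 else 0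

/-- positivity-preserving, unit-preserving operators -/
def IsMarkov (L : Module.End ℝ (Finset Ω → ℝ)) : Prop :=
  (∀ f, 0 ≤ f → 0 ≤ L f) ∧ L cOne = cOne

lemma IsMarkov.mono {L : Module.End ℝ (Finset Ω → ℝ)} (hL : IsMarkov L) {f g : Finset Ω → ℝ}
    (h : f ≤ g) : L f ≤ L g := by
  have := hL.1 (g - f) (sub_nonneg.mpr h)
  rw [map_sub] at this
  exact sub_nonneg.mp this

lemma IsMarkov.one : IsMarkov (1 : Module.End ℝ (Finset Ω → ℝ)) :=
  ⟨fun f hf => by simpa using hf, by simp⟩

lemma IsMarkov.mul {A B : Module.End ℝ (Finset Ω → ℝ)} (hA : IsMarkov A) (hB : IsMarkov B) :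
    IsMarkov (A * B) :=
  ⟨fun f hf => by
      rw [Module.End.mul_apply]
      exact hA.1 _ (hB.1 _ hf),
    by rw [Module.End.mul_apply, hB.2, hA.2]⟩

lemma IsMarkov.pow {A : Module.End ℝ (Finset Ω → ℝ)} (hA : IsMarkov A) (n : ℕ) :
    IsMarkov (A ^ n) := by
  induction n with
  | zero => simpa using IsMarkov.one
  | succ n ih => rw [pow_succ]; exact ih.mul hA

lemma IsMarkov.lazy {A : Module.End ℝ (Finset Ω → ℝ)} (hA : IsMarkov A) {θ : ℝ}
    (h0 : 0 ≤ θ) (h1 : θ ≤ 1) : IsMarkov (θ • A + (1 - θ) • (1 : Module.End ℝ (Finset Ω → ℝ))) := by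
  refine ⟨fun f hf => ?_, ?_⟩
  · simp only [LinearMap.add_apply, LinearMap.smul_apply, Module.End.one_apply]
    exact add_nonneg (smul_nonneg h0 (hA.1 f hf)) (smul_nonneg (by linarith) hf)
  · simp only [LinearMap.add_apply, LinearMap.smul_apply, Module.End.one_apply, hA.2]
    rw [← add_smul]; simp

lemma avgOp_isMarkov {X : Type*} [Fintype X] [Nonempty X] (sat : X → Finset Ω) :
    IsMarkov (avgOp sat) := by
  refine ⟨fun f hf => ?_, ?_⟩
  · intro S
    rw [avgOp_apply]
    exact mul_nonneg (by positivity) (Finset.sum_nonneg fun x _ => hf _)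
  · funext S
    rw [avgOp_apply]
    simp [cOne]

lemma avgOp_commute {X Y : Type*} [Fintype X] [Fintype Y] (s : X → Finset Ω) (t : Y → Finset Ω) :
    Commute (avgOp s) (avgOp t) := by
  apply LinearMap.ext
  intro f
  funext S
  simp only [Module.End.mul_apply, avgOp_apply, Finset.mul_sum]
  rw [Finset.sum_comm]
  refine Finset.sum_congr rfl fun y _ => Finset.sum_congr rfl fun x _ => ?_
  rw [Finset.inter_right_comm]
  ring

/-- The hybrid (interpolation) argument. -/
lemma interp {A B : Module.End ℝ (Finset Ω → ℝ)} (hAB : Commute A B) (hA : IsMarkov A)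
    (hB : IsMarkov B) (e : Finset Ω → ℝ) (τ : ℝ) (h : B e - τ • cOne ≤ A e) (T : ℕ) :
    (B ^ T) e - ((T : ℝ) * τ) • cOne ≤ (A ^ T) e := by
  induction T with
  | zero => simp
  | succ T ih =>
    have h1 : (A ^ T) (B e - τ • cOne) ≤ (A ^ T) (A e) := (hA.pow T).mono h
    have h2 : B ((B ^ T) e - ((T : ℝ) * τ) • cOne) ≤ B ((A ^ T) e) := hB.mono ih
    have h3 : (A ^ T) (B e) = B ((A ^ T) e) := by
      have : A ^ T * B = B * A ^ T := (hAB.pow_left T).eq
      calc (A ^ T) (B e) = (A ^ T * B) e := rfl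
        _ = (B * A ^ T) e := by rw [this]
        _ = B ((A ^ T) e) := rfl
    have h4 : (A ^ (T + 1)) e = (A ^ T) (A e) := by rw [pow_succ]; rfl
    have h5 : (B ^ (T + 1)) e = B ((B ^ T) e) := by rw [pow_succ']; rfl
    rw [h4, h5]
    rw [map_sub, map_smul, (hA.pow T).2, h3] at h1
    rw [map_sub, map_smul, hB.2] at h2
    intro S
    have h1S := h1 S
    have h2S := h2 S
    simp only [Pi.sub_apply, Pi.smul_apply, smul_eq_mul, cOne, mul_one] at h1S h2S ⊢
    push_cast
    linarith

/-- Binomial expansion of a lazy operator. -/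
lemma lazy_pow_apply (G : Module.End ℝ (Finset Ω → ℝ)) (θ : ℝ) (T : ℕ) (f : Finset Ω → ℝ)
    (S : Finset Ω) :
    ((θ • G + (1 - θ) • (1 : Module.End ℝ (Finset Ω → ℝ))) ^ T) f S =
      ∑ j ∈ range (T + 1), ((T.choose j : ℝ) * θ ^ j * (1 - θ) ^ (T - j)) * (G ^ j) f S := by
  have hc : Commute (θ • G) ((1 - θ) • (1 : Module.End ℝ (Finset Ω → ℝ))) := by
    apply Commute.smul_left
    apply Commute.smul_right
    exact Commute.one_right G
  rw [hc.add_pow]
  rw [LinearMap.sum_apply, Finset.sum_apply]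
  refine Finset.sum_congr rfl fun j _ => ?_
  rw [smul_pow, smul_pow, one_pow]
  have hn : ((T.choose j : ℕ) : Module.End ℝ (Finset Ω → ℝ)) = (T.choose j : ℝ) • 1 := by
    rw [Nat.cast_smul_eq_nsmul, nsmul_one]
  rw [hn, smul_mul_assoc, mul_smul_comm, mul_one, mul_smul_comm, mul_one,
    smul_smul, smul_smul]
  simp only [LinearMap.smul_apply, Pi.smul_apply, smul_eq_mul]

/-- the common solution set of a tuple of constraints -/
def solSet [Fintype Ω] {X : Type*} (sat : X → Finset Ω) {m : ℕ} (F : Fin m → X) : Finset Ω :=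
  Finset.univ.filter fun ω => ∀ i, ω ∈ sat (F i)

lemma avgOp_pow_apply [Fintype Ω] {X : Type*} [Fintype X] (sat : X → Finset Ω) (m : ℕ)
    (f : Finset Ω → ℝ) (S : Finset Ω) :
    (avgOp sat ^ m) f S = ((Fintype.card X : ℝ)⁻¹) ^ m * ∑ F : Fin m → X, f (S ∩ solSet sat F) := by
  induction m generalizing f with
  | zero =>
    simp [solSet]
  | succ m ih =>
    have h4 : (avgOp sat ^ (m + 1)) f = (avgOp sat ^ m) (avgOp sat f) := by rw [pow_succ]; rfl
    rw [h4, ih]
    rw [← (Fin.consEquiv (fun _ : Fin (m + 1) => X)).sum_comp, Fintype.sum_prod_type]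
    simp only [avgOp_apply]
    rw [Finset.sum_comm, pow_succ, mul_assoc, ← Finset.mul_sum]
    congr 2
    refine Finset.sum_congr rfl fun F _ => Finset.sum_congr rfl fun x _ => ?_
    congr 1
    ext ω
    simp only [solSet, Fin.consEquiv, Equiv.coe_fn_mk, Finset.mem_inter, Finset.mem_filter,
      Finset.mem_univ, true_and, Fin.forall_fin_succ, Fin.cons_zero, Fin.cons_succ]
    tauto

end Vale.Agent.Lib.P170
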