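import Vale.Agent.Lib.P170.Defs
import Vale.Agent.Lib.P170.Interp

/-!
Clause operators: random proper clauses acting on sets of assignments.
-/

namespace Vale.Agent.Lib.P170

open Finset

set_option linter.unusedSectionVars false

variable {V : Type} [Fintype V] [DecidableEq V]

/-- The assignments on `V` that satisfy the clause `c` transported along `ι`. -/
def satSet {k n : ℕ} (ι : Fin n → V) (c : Clause k n) : Finset (V → Bool) :=
  Finset.univ.filter fun σ => ∃ v : c.1.1, σ (ι v) = c.2 v

lemma mem_satSet {k n : ℕ} (ι : Fin n → V) (c : Clause k n) (σ : V → Bool) :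
    σ ∈ satSet ι c ↔ ∃ v : c.1.1, σ (ι v) = c.2 v := by
  simp [satSet]

lemma card_clause (k n : ℕ) : Fintype.card (Clause k n) = 2 ^ k * n.choose k := by
  rw [Fintype.card_sigma]
  have : ∀ A : {A : Finset (Fin n) // A.card = k}, Fintype.card (A.1 → Bool) = 2 ^ k := by
    intro A
    rw [Fintype.card_fun, Fintype.card_bool, Fintype.card_coe, A.2]
  rw [Finset.sum_congr rfl fun A _ => this A]
  rw [Finset.sum_const, Finset.card_univ, Fintype.card_finset_len, Fintype.card_fin, smul_eq_mul,
    mul_comm]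

/-- the clause operator -/
noncomputable def clOp (k : ℕ) {n : ℕ} (ι : Fin n → V) : Module.End ℝ (Finset (V → Bool) → ℝ) :=
  avgOp (satSet (k := k) ι)

lemma satProb_eq {n : ℕ} (ι : Fin n → V) (hι : Function.Injective ι) (k m : ℕ) :
    satProb k n m = (clOp k ι ^ m) eInd Finset.univ := by
  classical
  unfold clOp
  rw [avgOp_pow_apply]
  have key : ∀ F : Fin m → Clause k n, eInd (univ ∩ solSet (satSet ι) F) =
      if (∃ σ : Fin n → Bool, ∀ i, (F i).IsSat σ) then 1 else 0 := by
    intro F
    unfold eInd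
    have : (univ ∩ solSet (satSet ι) F).Nonempty ↔ ∃ σ : Fin n → Bool, ∀ i, (F i).IsSat σ := by
      constructor
      · rintro ⟨σ, hσ⟩
        simp only [solSet, univ_inter, mem_filter, mem_univ, true_and, mem_satSet] at hσ
        exact ⟨σ ∘ ι, fun i => hσ i⟩
      · rintro ⟨σ', h⟩
        obtain ⟨σ, rfl⟩ := hι.surjective_comp_right σ'
        refine ⟨σ, ?_⟩
        simp only [solSet, univ_inter, mem_filter, mem_univ, true_and, mem_satSet]
        exact h
    simp only [this]
  rw [Finset.sum_congr rfl fun F _ => key F]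
  rw [Finset.sum_boole]
  unfold satProb
  rw [Nat.card_eq_fintype_card, Nat.card_eq_fintype_card, Fintype.card_subtype, Fintype.card_fun,
    Fintype.card_fin]
  push_cast
  rw [inv_pow, div_eq_inv_mul]

/-- The variables (seen through `ι`) on which all assignments of `S` agree. -/
def frz {n : ℕ} (ι : Fin n → V) (S : Finset (V → Bool)) : Finset (Fin n) :=
  Finset.univ.filter fun v => ∀ σ ∈ S, ∀ σ' ∈ S, σ (ι v) = σ' (ι v)

lemma mem_frz {n : ℕ} (ι : Fin n → V) (S : Finset (V → Bool)) (v : Fin n) :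
    v ∈ frz ι S ↔ ∀ σ ∈ S, ∀ σ' ∈ S, σ (ι v) = σ' (ι v) := by
  simp [frz]

lemma frz_mono {n : ℕ} (ι : Fin n → V) {S S' : Finset (V → Bool)} (h : S' ⊆ S) :
    frz ι S ⊆ frz ι S' := by
  intro v hv
  rw [mem_frz] at hv ⊢
  exact fun σ hσ σ' hσ' => hv σ (h hσ) σ' (h hσ')

lemma card_frz_le {n : ℕ} (ι : Fin n → V) (S : Finset (V → Bool)) : (frz ι S).card ≤ n := by
  simpa using Finset.card_le_univ (frz ι S)

/-- number of clauses violated by all assignments of a nonempty set -/
lemma card_killed (k : ℕ) {n : ℕ} (ι : Fin n → V) (S : Finset (V → Bool)) (hS : S.Nonempty) :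
    (Finset.univ.filter fun c : Clause k n => ¬ (S ∩ satSet ι c).Nonempty).card =
      (frz ι S).card.choose k := by
  classical
  obtain ⟨σ0, h0⟩ := hS
  rw [← Finset.card_powersetCard]
  symm
  refine Finset.card_bij
    (fun A hA => (⟨⟨A, (Finset.mem_powersetCard.1 hA).2⟩, fun v => !(σ0 (ι v))⟩ : Clause k n))
    ?_ ?_ ?_
  · intro A hA
    simp only [mem_filter, mem_univ, true_and, Finset.not_nonempty_iff_eq_empty]
    rw [Finset.eq_empty_iff_forall_notMem]
    intro σ hσ
    rw [Finset.mem_inter, mem_satSet] at hσ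
    obtain ⟨hσS, v, hv⟩ := hσ
    have hvA : (v : Fin n) ∈ frz ι S := (Finset.mem_powersetCard.1 hA).1 v.2
    rw [mem_frz] at hvA
    have := hvA σ hσS σ0 h0
    simp only at hv
    rw [this] at hv
    cases h : σ0 (ι v) <;> simp [h] at hv
  · intro A hA B hB hAB
    have := congrArg (fun c : Clause k n => c.1.1) hAB
    simpa using this
  · rintro ⟨⟨A, hA⟩, s⟩ hc
    simp only [mem_filter, mem_univ, true_and, Finset.not_nonempty_iff_eq_empty] at hc
    rw [Finset.eq_empty_iff_forall_notMem] at hc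
    have hk : ∀ σ ∈ S, ∀ v : A, σ (ι v) = !(s v) := by
      intro σ hσ v
      have := hc σ
      rw [Finset.mem_inter, mem_satSet] at this
      simp only [not_and, not_exists] at this
      have h2 := this hσ v
      cases h : σ (ι v) <;> cases h' : s v <;> simp_all
    refine ⟨A, ?_, ?_⟩
    · rw [Finset.mem_powersetCard]
      refine ⟨fun v hv => ?_, hA⟩
      rw [mem_frz]
      intro σ hσ σ' hσ'
      rw [hk σ hσ ⟨v, hv⟩, hk σ' hσ' ⟨v, hv⟩]
    · congr 1
      funext v
      rw [hk σ0 h0 v]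
      simp

lemma eInd_le_one (S : Finset (V → Bool)) : eInd S ≤ 1 := by
  unfold eInd; split_ifs <;> norm_num

lemma eInd_nonneg (S : Finset (V → Bool)) : 0 ≤ eInd S := by
  unfold eInd; split_ifs <;> norm_num

lemma eInd_of_nonempty {S : Finset (V → Bool)} (h : S.Nonempty) : eInd S = 1 := by
  unfold eInd; simp [h]

lemma eInd_empty : eInd (∅ : Finset (V → Bool)) = 0 := by
  unfold eInd; simp

/-- kill ratio -/
noncomputable def kr (k f n : ℕ) : ℝ := (f.choose k : ℝ) / ((2 : ℝ) ^ k * (n.choose k : ℝ))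

lemma clOp_eInd_of_nonempty (k : ℕ) {n : ℕ} (hkn : k ≤ n) (ι : Fin n → V) (S : Finset (V → Bool))
    (hS : S.Nonempty) : clOp k ι eInd S = 1 - kr k (frz ι S).card n := by
  classical
  unfold clOp
  rw [avgOp_apply]
  have h1 : ∀ c : Clause k n, eInd (S ∩ satSet ι c) =
      1 - (if ¬ (S ∩ satSet ι c).Nonempty then 1 else 0) := by
    intro c
    unfold eInd
    by_cases h : (S ∩ satSet ι c).Nonempty <;> simp [h]
  rw [Finset.sum_congr rfl fun c _ => h1 c, Finset.sum_sub_distrib, Finset.sum_boole,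
    card_killed k ι S hS]
  simp only [sum_const, card_univ, nsmul_eq_mul, mul_one]
  rw [card_clause]
  have hpos : (0 : ℝ) < (n.choose k : ℝ) := by
    have : 0 < n.choose k := Nat.choose_pos hkn
    positivity
  unfold kr
  push_cast
  field_simp

lemma clOp_eInd_empty (k : ℕ) {n : ℕ} (ι : Fin n → V) : clOp k ι eInd ∅ = 0 := by
  unfold clOp
  rw [avgOp_apply]
  simp [eInd_empty]

end Vale.Agent.Lib.P170
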