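import Vale.Agent.Lib.P170.ClauseOp

/-!
Basic properties of `satProb` and the core interpolation inequality.
-/

namespace Vale.Agent.Lib.P170

open Finset

set_option linter.unusedSectionVars false

variable {V : Type} [Fintype V] [DecidableEq V]

lemma clause_nonempty {k n : ℕ} (hkn : k ≤ n) : Nonempty (Clause k n) := by
  rw [← Fintype.card_pos_iff, card_clause]
  have : 0 < n.choose k := Nat.choose_pos hkn
  positivity

lemma clOp_isMarkov {k n : ℕ} (hkn : k ≤ n) (ι : Fin n → V) : IsMarkov (clOp k ι) := by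
  have := clause_nonempty hkn
  exact avgOp_isMarkov _

lemma clOp_commute (k : ℕ) {n n' : ℕ} (ι : Fin n → V) (ι' : Fin n' → V) :
    Commute (clOp k ι) (clOp k ι') := avgOp_commute _ _

lemma kr_nonneg (k f n : ℕ) : 0 ≤ kr k f n := by unfold kr; positivity

lemma kr_mono (k : ℕ) {f f' : ℕ} (h : f ≤ f') (n : ℕ) : kr k f n ≤ kr k f' n := by
  unfold kr
  apply div_le_div_of_nonneg_right _ (by positivity)
  exact_mod_cast Nat.choose_le_choose k h

lemma kr_le_one (k : ℕ) {f n : ℕ} (h : f ≤ n) : kr k f n ≤ 1 := by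
  unfold kr
  apply div_le_one_of_le₀ _ (by positivity)
  have h1 : (f.choose k : ℝ) ≤ (n.choose k : ℝ) := by exact_mod_cast Nat.choose_le_choose k h
  have h2 : (1 : ℝ) ≤ 2 ^ k := one_le_pow₀ (by norm_num)
  have h3 : (0 : ℝ) ≤ (n.choose k : ℝ) := by positivity
  nlinarith

lemma kr_self (k : ℕ) {n : ℕ} (h : k ≤ n) : kr k n n = 1 / 2 ^ k := by
  unfold kr
  have : (0 : ℝ) < (n.choose k : ℝ) := by exact_mod_cast Nat.choose_pos h
  field_simp

lemma clOp_eInd_le {k n : ℕ} (hkn : k ≤ n) (ι : Fin n → V) : clOp k ι eInd ≤ eInd := by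
  intro S
  rcases S.eq_empty_or_nonempty with rfl | hS
  · rw [clOp_eInd_empty, eInd_empty]
  · rw [clOp_eInd_of_nonempty k hkn ι S hS, eInd_of_nonempty hS]
    linarith [kr_nonneg k (frz ι S).card n]

lemma satProb_nonneg (k n m : ℕ) : 0 ≤ satProb k n m := by unfold satProb; positivity

lemma satProb_succ_le {k n : ℕ} (hkn : k ≤ n) (m : ℕ) : satProb k n (m + 1) ≤ satProb k n m := by
  rw [satProb_eq (id : Fin n → Fin n) Function.injective_id,
    satProb_eq (id : Fin n → Fin n) Function.injective_id]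
  have h4 : (clOp k (id : Fin n → Fin n) ^ (m + 1)) eInd =
      (clOp k id ^ m) (clOp k id eInd) := by rw [pow_succ]; rfl
  rw [h4]
  exact ((clOp_isMarkov hkn id).pow m).mono (clOp_eInd_le hkn id) _

lemma satProb_anti {k n : ℕ} (hkn : k ≤ n) : Antitone (satProb k n) :=
  antitone_nat_of_succ_le (satProb_succ_le hkn)

lemma satProb_le_one {k n : ℕ} (hkn : k ≤ n) (m : ℕ) : satProb k n m ≤ 1 := by
  rw [satProb_eq (id : Fin n → Fin n) Function.injective_id]
  have h : (eInd : Finset (Fin n → Bool) → ℝ) ≤ cOne := fun S => eInd_le_one S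
  have := ((clOp_isMarkov hkn (id : Fin n → Fin n)).pow m).mono h Finset.univ
  rw [((clOp_isMarkov hkn (id : Fin n → Fin n)).pow m).2] at this
  exact this

lemma satProb_zero (k n : ℕ) : satProb k n 0 = 1 := by
  rw [satProb_eq (id : Fin n → Fin n) Function.injective_id]
  simp [eInd]

/-- cardinality as a real function -/
def cardF : Finset (V → Bool) → ℝ := fun S => (S.card : ℝ)

lemma frz_singleton {n : ℕ} (ι : Fin n → V) (σ : V → Bool) : frz ι {σ} = Finset.univ := by
  ext v
  simp [mem_frz]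

lemma clOp_cardF {k n : ℕ} (hkn : k ≤ n) (ι : Fin n → V) :
    clOp k ι cardF = (1 - 1 / 2 ^ k : ℝ) • cardF := by
  classical
  funext S
  have h1 : ∀ c : Clause k n, cardF (S ∩ satSet ι c) = ∑ σ ∈ S, eInd ({σ} ∩ satSet ι c) := by
    intro c
    unfold cardF eInd
    rw [← Finset.filter_mem_eq_inter, Finset.card_filter]
    push_cast
    refine Finset.sum_congr rfl fun σ _ => ?_
    by_cases h : σ ∈ satSet ι c
    · simp [h]
    · simp [h]
  have h2 : ∀ σ : V → Bool, clOp k ι eInd {σ} = 1 - 1 / 2 ^ k := by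
    intro σ
    rw [clOp_eInd_of_nonempty k hkn ι _ (Finset.singleton_nonempty σ), frz_singleton]
    simp only [card_univ, Fintype.card_fin]
    rw [kr_self k hkn]
  have h3 : clOp k ι cardF S = ∑ σ ∈ S, clOp k ι eInd {σ} := by
    unfold clOp
    simp only [avgOp_apply]
    rw [Finset.sum_congr rfl fun c _ => h1 c, Finset.sum_comm, Finset.mul_sum]
  rw [h3, Finset.sum_congr rfl fun σ _ => h2 σ]
  simp only [sum_const, nsmul_eq_mul, Pi.smul_apply, smul_eq_mul, cardF]
  ring

lemma clOp_pow_cardF {k n : ℕ} (hkn : k ≤ n) (ι : Fin n → V) (m : ℕ) :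
    (clOp k ι ^ m) cardF = ((1 - 1 / 2 ^ k : ℝ) ^ m) • cardF := by
  induction m with
  | zero => simp
  | succ m ih =>
    have h4 : (clOp k ι ^ (m + 1)) cardF = (clOp k ι ^ m) (clOp k ι cardF) := by
      rw [pow_succ]; rfl
    rw [h4, clOp_cardF hkn, map_smul, ih, smul_smul, pow_succ, mul_comm]

/-- The first moment bound. -/
lemma satProb_le_firstMoment {k n : ℕ} (hkn : k ≤ n) (m : ℕ) :
    satProb k n m ≤ 2 ^ n * (1 - 1 / 2 ^ k : ℝ) ^ m := by
  rw [satProb_eq (id : Fin n → Fin n) Function.injective_id]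
  have h : (eInd : Finset (Fin n → Bool) → ℝ) ≤ cardF := by
    intro S
    unfold eInd cardF
    split_ifs with hS
    · have : 1 ≤ S.card := Finset.card_pos.mpr hS
      exact Nat.one_le_cast.mpr this
    · positivity
  have := ((clOp_isMarkov hkn (id : Fin n → Fin n)).pow m).mono h Finset.univ
  rw [clOp_pow_cardF hkn] at this
  simp only [Pi.smul_apply, smul_eq_mul, cardF, card_univ, Fintype.card_fun, Fintype.card_bool,
    Fintype.card_fin] at this
  push_cast at this
  linarith

end Vale.Agent.Lib.P170
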