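import Vale.Agent.Lib.P170.Core

/-!
The two-block interpolation inequality.
-/

namespace Vale.Agent.Lib.P170

open Finset

set_option linter.unusedSectionVars false

/-- binomial weights -/
noncomputable def bin (T : ℕ) (θ : ℝ) (j : ℕ) : ℝ := (T.choose j : ℝ) * θ ^ j * (1 - θ) ^ (T - j)

/-- lazy version of an operator -/
noncomputable def lazyOp {Ω : Type*} (θ : ℝ) (G : Module.End ℝ (Finset Ω → ℝ)) :
    Module.End ℝ (Finset Ω → ℝ) := θ • G + (1 - θ) • (1 : Module.End ℝ (Finset Ω → ℝ))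

lemma lazyOp_apply {Ω : Type*} (θ : ℝ) (G : Module.End ℝ (Finset Ω → ℝ)) (f : Finset Ω → ℝ)
    (S : Finset Ω) : lazyOp θ G f S = θ * G f S + (1 - θ) * f S := by
  simp [lazyOp]

lemma lazyOp_pow_apply {Ω : Type*} [DecidableEq Ω] (G : Module.End ℝ (Finset Ω → ℝ)) (θ : ℝ) (T : ℕ)
    (f : Finset Ω → ℝ) (S : Finset Ω) :
    (lazyOp θ G ^ T) f S = ∑ j ∈ range (T + 1), bin T θ j * (G ^ j) f S :=
  lazy_pow_apply G θ T f S

lemma lazyOp_pow_fun {Ω : Type*} [DecidableEq Ω] (G : Module.End ℝ (Finset Ω → ℝ)) (θ : ℝ) (T : ℕ)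
    (f : Finset Ω → ℝ) :
    (lazyOp θ G ^ T) f = ∑ j ∈ range (T + 1), bin T θ j • (G ^ j) f := by
  funext S
  rw [lazyOp_pow_apply, Finset.sum_apply]
  rfl

section blocks

variable (n₁ n₂ : ℕ)

/-- the identification of the `n₁ + n₂` variables with the disjoint union of the two blocks -/
def io : Fin (n₁ + n₂) → Fin n₁ ⊕ Fin n₂ := finSumFinEquiv.symm

lemma io_injective : Function.Injective (io n₁ n₂) := finSumFinEquiv.symm.injective

lemma card_frz_io (S : Finset (Fin n₁ ⊕ Fin n₂ → Bool)) :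
    (frz (io n₁ n₂) S).card =
      (frz (Sum.inl : Fin n₁ → Fin n₁ ⊕ Fin n₂) S).card +
        (frz (Sum.inr : Fin n₂ → Fin n₁ ⊕ Fin n₂) S).card := by
  classical
  unfold frz
  rw [Finset.card_filter, Finset.card_filter, Finset.card_filter]
  rw [← finSumFinEquiv.sum_comp, Fintype.sum_sum_type]
  simp [io]

lemma satProb_eq_sum (k n m : ℕ) : satProb k n m = ((Fintype.card (Clause k n) : ℝ)⁻¹) ^ m *
    ∑ F : Fin m → Clause k n, eInd (solSet (satSet (id : Fin n → Fin n)) F) := by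
  rw [satProb_eq (id : Fin n → Fin n) Function.injective_id]
  unfold clOp
  rw [avgOp_pow_apply]
  simp

lemma eInd_prod (k a b : ℕ) (F₁ : Fin a → Clause k n₁) (F₂ : Fin b → Clause k n₂) :
    eInd (Finset.univ ∩ solSet (satSet (Sum.inl : Fin n₁ → Fin n₁ ⊕ Fin n₂)) F₁ ∩
      solSet (satSet (Sum.inr : Fin n₂ → Fin n₁ ⊕ Fin n₂)) F₂) =
    eInd (solSet (satSet (id : Fin n₁ → Fin n₁)) F₁) *
      eInd (solSet (satSet (id : Fin n₂ → Fin n₂)) F₂) := by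
  classical
  have h : (Finset.univ ∩ solSet (satSet (Sum.inl : Fin n₁ → Fin n₁ ⊕ Fin n₂)) F₁ ∩
      solSet (satSet (Sum.inr : Fin n₂ → Fin n₁ ⊕ Fin n₂)) F₂).Nonempty ↔
      (solSet (satSet (id : Fin n₁ → Fin n₁)) F₁).Nonempty ∧
        (solSet (satSet (id : Fin n₂ → Fin n₂)) F₂).Nonempty := by
    constructor
    · rintro ⟨σ, hσ⟩
      simp only [solSet, univ_inter, mem_inter, mem_filter, mem_univ, true_and, mem_satSet] at hσ
      refine ⟨⟨σ ∘ Sum.inl, ?_⟩, ⟨σ ∘ Sum.inr, ?_⟩⟩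
      · simp only [solSet, mem_filter, mem_univ, true_and, mem_satSet]
        exact hσ.1
      · simp only [solSet, mem_filter, mem_univ, true_and, mem_satSet]
        exact hσ.2
    · rintro ⟨⟨σ₁, h₁⟩, ⟨σ₂, h₂⟩⟩
      simp only [solSet, mem_filter, mem_univ, true_and, mem_satSet] at h₁ h₂
      refine ⟨Sum.elim σ₁ σ₂, ?_⟩
      simp only [solSet, univ_inter, mem_inter, mem_filter, mem_univ, true_and, mem_satSet]
      exact ⟨h₁, h₂⟩
  unfold eInd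
  rw [if_congr h rfl rfl]
  by_cases h1 : (solSet (satSet (id : Fin n₁ → Fin n₁)) F₁).Nonempty <;>
  by_cases h2 : (solSet (satSet (id : Fin n₂ → Fin n₂)) F₂).Nonempty <;>
  simp only [h1, h2, and_self, and_true, and_false, if_true, if_false, mul_one, mul_zero]

lemma clOp_prod (k a b : ℕ) :
    (clOp k (Sum.inl : Fin n₁ → Fin n₁ ⊕ Fin n₂) ^ a)
      ((clOp k (Sum.inr : Fin n₂ → Fin n₁ ⊕ Fin n₂) ^ b) eInd) Finset.univ =
    satProb k n₁ a * satProb k n₂ b := by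
  unfold clOp
  rw [avgOp_pow_apply]
  simp only [avgOp_pow_apply]
  simp only [eInd_prod]
  rw [satProb_eq_sum, satProb_eq_sum]
  simp only [← Finset.mul_sum, ← Finset.sum_mul]
  ring

lemma lazy_clOp_eInd {V : Type} [Fintype V] [DecidableEq V] {k n : ℕ} (hkn : k ≤ n) (ι : Fin n → V)
    (β : ℝ) (S : Finset (V → Bool)) :
    lazyOp β (clOp k ι) eInd S = eInd S * (1 - β * kr k (frz ι S).card n) := by
  rw [lazyOp_apply]
  rcases S.eq_empty_or_nonempty with rfl | hS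
  · rw [clOp_eInd_empty, eInd_empty]; ring
  · rw [clOp_eInd_of_nonempty k hkn ι S hS, eInd_of_nonempty hS]; ring

lemma core_step (k : ℕ) (hk₁ : k ≤ n₁) (hk₂ : k ≤ n₂) (θ β₁ β₂ τ : ℝ)
    (hβ₁0 : 0 ≤ β₁) (hβ₁1 : β₁ ≤ 1) (hβ₂0 : 0 ≤ β₂) (hβ₂1 : β₂ ≤ 1)
    (hτ : 0 ≤ τ)
    (H : ∀ f₁ ≤ n₁, ∀ f₂ ≤ n₂,
      θ * kr k (f₁ + f₂) (n₁ + n₂) ≤ β₁ * kr k f₁ n₁ + β₂ * kr k f₂ n₂ + τ) :
    (lazyOp β₁ (clOp k (Sum.inl : Fin n₁ → Fin n₁ ⊕ Fin n₂)) *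
      lazyOp β₂ (clOp k (Sum.inr : Fin n₂ → Fin n₁ ⊕ Fin n₂))) eInd - (τ + β₁ * β₂) • cOne ≤
    lazyOp θ (clOp k (io n₁ n₂)) eInd := by
  intro S
  have hk : k ≤ n₁ + n₂ := le_trans hk₁ (Nat.le_add_right _ _)
  simp only [Pi.sub_apply, Pi.smul_apply, smul_eq_mul, cOne, mul_one, Module.End.mul_apply]
  rw [lazy_clOp_eInd hk, lazyOp_apply, lazy_clOp_eInd hk₂]
  have hββ : 0 ≤ β₁ * β₂ := mul_nonneg hβ₁0 hβ₂0
  rcases S.eq_empty_or_nonempty with rfl | hS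
  · have : clOp k (Sum.inl : Fin n₁ → Fin n₁ ⊕ Fin n₂)
        (lazyOp β₂ (clOp k (Sum.inr : Fin n₂ → Fin n₁ ⊕ Fin n₂)) eInd) ∅ = 0 := by
      unfold clOp
      rw [avgOp_apply]
      simp only [empty_inter]
      have h0 : lazyOp β₂ (avgOp (satSet (k := k) (Sum.inr : Fin n₂ → Fin n₁ ⊕ Fin n₂))) eInd ∅ = 0 := by
        have := lazy_clOp_eInd hk₂ (Sum.inr : Fin n₂ → Fin n₁ ⊕ Fin n₂) β₂ ∅
        rw [eInd_empty, zero_mul] at this
        exact this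
      rw [h0]
      simp
    rw [this, eInd_empty]
    simp only [mul_zero, zero_mul, add_zero, zero_sub]
    linarith
  · set f₁ := (frz (Sum.inl : Fin n₁ → Fin n₁ ⊕ Fin n₂) S).card with hf₁
    set f₂ := (frz (Sum.inr : Fin n₂ → Fin n₁ ⊕ Fin n₂) S).card with hf₂
    have hf₁n : f₁ ≤ n₁ := card_frz_le _ _
    have hf₂n : f₂ ≤ n₂ := card_frz_le _ _
    rw [card_frz_io, ← hf₁, ← hf₂, eInd_of_nonempty hS]
    have hH := H f₁ hf₁n f₂ hf₂n
    have hk1 : 0 ≤ kr k f₁ n₁ := kr_nonneg _ _ _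
    have hk2 : 0 ≤ kr k f₂ n₂ := kr_nonneg _ _ _
    have hk1' : kr k f₁ n₁ ≤ 1 := kr_le_one _ hf₁n
    have hk2' : kr k f₂ n₂ ≤ 1 := kr_le_one _ hf₂n
    have hfac : 0 ≤ 1 - β₂ * kr k f₂ n₂ := by nlinarith
    -- bound for the inner term
    have hin : clOp k (Sum.inl : Fin n₁ → Fin n₁ ⊕ Fin n₂)
        (lazyOp β₂ (clOp k (Sum.inr : Fin n₂ → Fin n₁ ⊕ Fin n₂)) eInd) S ≤
        (1 - kr k f₁ n₁) * (1 - β₂ * kr k f₂ n₂) := by
      have h1 := clOp_eInd_of_nonempty k hk₁ (Sum.inl : Fin n₁ → Fin n₁ ⊕ Fin n₂) S hS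
      rw [← hf₁] at h1
      rw [← h1]
      unfold clOp
      rw [avgOp_apply, avgOp_apply, mul_assoc, Finset.sum_mul]
      apply mul_le_mul_of_nonneg_left _ (by positivity)
      apply Finset.sum_le_sum
      intro c _
      have h2 := lazy_clOp_eInd hk₂ (Sum.inr : Fin n₂ → Fin n₁ ⊕ Fin n₂) β₂ (S ∩ satSet Sum.inl c)
      unfold clOp at h2
      rw [h2]
      apply mul_le_mul_of_nonneg_left _ (eInd_nonneg _)
      have h3 : kr k f₂ n₂ ≤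
          kr k (frz (Sum.inr : Fin n₂ → Fin n₁ ⊕ Fin n₂) (S ∩ satSet Sum.inl c)).card n₂ :=
        kr_mono k (Finset.card_le_card (frz_mono _ Finset.inter_subset_left)) n₂
      nlinarith
    have hprod : β₁ * β₂ * (kr k f₁ n₁ * kr k f₂ n₂) ≤ β₁ * β₂ := by
      have : kr k f₁ n₁ * kr k f₂ n₂ ≤ 1 := by nlinarith
      nlinarith
    have hstep : β₁ * clOp k (Sum.inl : Fin n₁ → Fin n₁ ⊕ Fin n₂)
        (lazyOp β₂ (clOp k (Sum.inr : Fin n₂ → Fin n₁ ⊕ Fin n₂)) eInd) S ≤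
        β₁ * ((1 - kr k f₁ n₁) * (1 - β₂ * kr k f₂ n₂)) := mul_le_mul_of_nonneg_left hin hβ₁0
    nlinarith

/-- The core two-block inequality, in binomially thinned form. -/
lemma core (k T : ℕ) (hk₁ : k ≤ n₁) (hk₂ : k ≤ n₂) (θ β₁ β₂ τ : ℝ)
    (hθ0 : 0 ≤ θ) (hθ1 : θ ≤ 1) (hβ₁0 : 0 ≤ β₁) (hβ₁1 : β₁ ≤ 1) (hβ₂0 : 0 ≤ β₂) (hβ₂1 : β₂ ≤ 1)
    (hτ : 0 ≤ τ)
    (H : ∀ f₁ ≤ n₁, ∀ f₂ ≤ n₂,
      θ * kr k (f₁ + f₂) (n₁ + n₂) ≤ β₁ * kr k f₁ n₁ + β₂ * kr k f₂ n₂ + τ) :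
    (∑ a ∈ range (T + 1), bin T β₁ a * satProb k n₁ a) *
        (∑ b ∈ range (T + 1), bin T β₂ b * satProb k n₂ b) - T * (τ + β₁ * β₂) ≤
      ∑ j ∈ range (T + 1), bin T θ j * satProb k (n₁ + n₂) j := by
  have hk : k ≤ n₁ + n₂ := le_trans hk₁ (Nat.le_add_right _ _)
  set G₀ := clOp k (io n₁ n₂) with hG₀
  set G₁ := clOp k (Sum.inl : Fin n₁ → Fin n₁ ⊕ Fin n₂) with hG₁
  set G₂ := clOp k (Sum.inr : Fin n₂ → Fin n₁ ⊕ Fin n₂) with hG₂
  have hM₀ : IsMarkov (lazyOp θ G₀) := (clOp_isMarkov hk _).lazy hθ0 hθ1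
  have hM₁ : IsMarkov (lazyOp β₁ G₁) := (clOp_isMarkov hk₁ _).lazy hβ₁0 hβ₁1
  have hM₂ : IsMarkov (lazyOp β₂ G₂) := (clOp_isMarkov hk₂ _).lazy hβ₂0 hβ₂1
  have lazy_comm : ∀ (a b : ℝ) (A B : Module.End ℝ (Finset (Fin n₁ ⊕ Fin n₂ → Bool) → ℝ)),
      Commute A B → Commute (lazyOp a A) (lazyOp b B) := by
    intro a b A B hAB
    unfold lazyOp
    apply Commute.add_left
    · apply Commute.add_right
      · exact (hAB.smul_left a).smul_right b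
      · exact ((Commute.one_right A).smul_left a).smul_right (1 - b)
    · apply Commute.add_right
      · exact ((Commute.one_left B).smul_left (1 - a)).smul_right b
      · exact ((Commute.one_left 1).smul_left (1 - a)).smul_right (1 - b)
  have hc01 : Commute (lazyOp θ G₀) (lazyOp β₁ G₁) := lazy_comm _ _ _ _ (clOp_commute k _ _)
  have hc02 : Commute (lazyOp θ G₀) (lazyOp β₂ G₂) := lazy_comm _ _ _ _ (clOp_commute k _ _)
  have hc12 : Commute (lazyOp β₁ G₁) (lazyOp β₂ G₂) := lazy_comm _ _ _ _ (clOp_commute k _ _)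
  have hmain := interp (hc01.mul_right hc02) hM₀ (hM₁.mul hM₂) eInd (τ + β₁ * β₂)
    (core_step n₁ n₂ k hk₁ hk₂ θ β₁ β₂ τ hβ₁0 hβ₁1 hβ₂0 hβ₂1 hτ H) T Finset.univ
  rw [lazyOp_pow_apply, hc12.mul_pow] at hmain
  simp only [Pi.sub_apply, Pi.smul_apply, smul_eq_mul, cOne, mul_one, Module.End.mul_apply] at hmain
  rw [lazyOp_pow_apply, lazyOp_pow_fun G₂] at hmain
  have e0 : ∀ j, (G₀ ^ j) eInd Finset.univ = satProb k (n₁ + n₂) j := by
    intro j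
    rw [satProb_eq (io n₁ n₂) (io_injective n₁ n₂)]
  have e1 : ∀ a, (G₁ ^ a) (∑ j ∈ range (T + 1), bin T β₂ j • (G₂ ^ j) eInd) Finset.univ =
      satProb k n₁ a * ∑ b ∈ range (T + 1), bin T β₂ b * satProb k n₂ b := by
    intro a
    rw [map_sum, Finset.sum_apply, Finset.mul_sum]
    refine Finset.sum_congr rfl fun b _ => ?_
    rw [map_smul, Pi.smul_apply, smul_eq_mul, clOp_prod]
    ring
  simp only [e0, e1] at hmain
  rw [Finset.sum_mul]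
  calc _ = ∑ x ∈ range (T + 1), bin T β₁ x *
        (satProb k n₁ x * ∑ b ∈ range (T + 1), bin T β₂ b * satProb k n₂ b) -
        T * (τ + β₁ * β₂) := by
        congr 1
        refine Finset.sum_congr rfl fun x _ => ?_
        ring
    _ ≤ _ := hmain

end blocks

end Vale.Agent.Lib.P170
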