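import Mathlib

/-!
Random k-SAT: the model of problem P170 (uniform proper clauses, sampled with replacement).
-/

namespace Vale.Agent.Lib.P170

/-- A proper `k`-clause on the Boolean variables `x_0, ..., x_{n-1}`: a `k`-element set of
variables together with a sign for each variable of the set (`true` for the literal `x_v`,
`false` for the literal `¬ x_v`).  There are `2 ^ k * n.choose k` of them. -/
abbrev Clause (k n : ℕ) : Type :=
  Σ A : {A : Finset (Fin n) // A.card = k}, (A.1 → Bool)

/-- The assignment `σ` satisfies the clause `c`: some literal of `c` is true under `σ`. -/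
def Clause.IsSat {k n : ℕ} (c : Clause k n) (σ : Fin n → Bool) : Prop :=
  ∃ v : c.1.1, σ v = c.2 v

/-- `satProb k n m` is `P_{k,n}(m)`: the probability that the conjunction of `m` independent
uniform proper `k`-clauses on `n` variables is satisfiable, i.e. the number of satisfiable
`m`-tuples of clauses divided by the number of all `m`-tuples of clauses. -/
noncomputable def satProb (k n m : ℕ) : ℝ :=
  (Nat.card {F : Fin m → Clause k n // ∃ σ : Fin n → Bool, ∀ i, (F i).IsSat σ} : ℝ) /
    (Nat.card (Fin m → Clause k n) : ℝ)

end Vale.Agent.Lib.P170
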