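import Vale.Agent.Lib.P170.Main

/-!
Density form of the two-block inequality.
-/

namespace Vale.Agent.Lib.P170

open Finset

lemma admissible_of (k n₁ n₂ : ℕ) (hk : 1 ≤ k) (t₁ t₂ : ℝ) (ht₁ : 0 < t₁) (ht₂ : 0 < t₂)
    (ht : t₁ + t₂ = (n₁ : ℝ) + n₂) :
    Admissible k n₁ n₂ ((n₁ : ℝ) ^ k / (((n₁ : ℝ) + n₂) * t₁ ^ (k - 1)))
      ((n₂ : ℝ) ^ k / (((n₁ : ℝ) + n₂) * t₂ ^ (k - 1))) := by
  intro x₁ x₂ hx₁ hx₂
  obtain ⟨K, rfl⟩ : ∃ K, k = K + 1 := ⟨k - 1, by omega⟩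
  simp only [Nat.add_sub_cancel]
  set n : ℝ := (n₁ : ℝ) + n₂ with hn
  have hnpos : 0 < n := by rw [← ht]; linarith
  have hx : (n₁ : ℝ) * x₁ / t₁ ∈ Set.Ici (0 : ℝ) := by simp only [Set.mem_Ici]; positivity
  have hy : (n₂ : ℝ) * x₂ / t₂ ∈ Set.Ici (0 : ℝ) := by simp only [Set.mem_Ici]; positivity
  have ha : 0 ≤ t₁ / n := by positivity
  have hb : 0 ≤ t₂ / n := by positivity
  have hab : t₁ / n + t₂ / n = 1 := by rw [← add_div, ht, div_self hnpos.ne']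
  have hconv := (convexOn_pow (𝕜 := ℝ) (K + 1)).2 hx hy ha hb hab
  simp only [smul_eq_mul] at hconv
  have e1 : t₁ / n * ((n₁ : ℝ) * x₁ / t₁) + t₂ / n * ((n₂ : ℝ) * x₂ / t₂) =
      ((n₁ : ℝ) * x₁ + n₂ * x₂) / n := by
    field_simp
  have e2 : t₁ / n * ((n₁ : ℝ) * x₁ / t₁) ^ (K + 1) = (n₁ : ℝ) ^ (K + 1) / (n * t₁ ^ K) * x₁ ^ (K + 1) := by
    rw [div_pow, mul_pow, pow_succ t₁ K]
    field_simp
  have e3 : t₂ / n * ((n₂ : ℝ) * x₂ / t₂) ^ (K + 1) = (n₂ : ℝ) ^ (K + 1) / (n * t₂ ^ K) * x₂ ^ (K + 1) := by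
    rw [div_pow, mul_pow, pow_succ t₂ K]
    field_simp
  rw [e1, e2, e3] at hconv
  exact hconv

/-- Density form of the two-block inequality: `t₁, t₂` are the virtual sizes of the blocks. -/
theorem main_density (k : ℕ) (hk : 2 ≤ k) (C ε : ℝ) (hC : 0 < C) (hε : 0 < ε) :
    ∃ N : ℕ, ∀ n₁ n₂ : ℕ, N ≤ n₁ → N ≤ n₂ → ∀ t₁ t₂ : ℝ, 0 < t₁ → 0 < t₂ →
      t₁ + t₂ = (n₁ : ℝ) + n₂ → ∀ c c₁ c₂ : ℝ, 0 ≤ c → c₁ ≤ C → c₂ ≤ C →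
      (c + ε) * ((n₁ : ℝ) / t₁) ^ (k - 1) + ε ≤ c₁ →
      (c + ε) * ((n₂ : ℝ) / t₂) ^ (k - 1) + ε ≤ c₂ →
      satProb k n₁ ⌊c₁ * n₁⌋₊ * satProb k n₂ ⌊c₂ * n₂⌋₊ - ε ≤
        satProb k (n₁ + n₂) ⌊c * ((n₁ + n₂ : ℕ) : ℝ)⌋₊ := by
  obtain ⟨N, hN⟩ := main_abstract k hk C (ε / 2) hC (by positivity)
  obtain ⟨N₀, hN₀⟩ := exists_nat_ge (2 / ε)
  refine ⟨max (max N N₀) 1, ?_⟩
  intro n₁ n₂ hn₁ hn₂ t₁ t₂ ht₁ ht₂ ht c c₁ c₂ hc hc₁C hc₂C hc₁ hc₂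
  have hNn₁ : N ≤ n₁ := le_trans (le_trans (le_max_left _ _) (le_max_left _ _)) hn₁
  have hNn₂ : N ≤ n₂ := le_trans (le_trans (le_max_left _ _) (le_max_left _ _)) hn₂
  have h1n₁ : 1 ≤ n₁ := le_trans (le_max_right _ _) hn₁
  have h1n₂ : 1 ≤ n₂ := le_trans (le_max_right _ _) hn₂
  have hn₁pos : (0 : ℝ) < n₁ := by exact_mod_cast h1n₁
  have hn₂pos : (0 : ℝ) < n₂ := by exact_mod_cast h1n₂
  have hε₁ : 1 ≤ ε / 2 * n₁ := by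
    have : 2 / ε ≤ n₁ :=
      le_trans hN₀ (by exact_mod_cast le_trans (le_trans (le_max_right _ _) (le_max_left _ _)) hn₁)
    rw [div_le_iff₀ hε] at this
    linarith
  have hε₂ : 1 ≤ ε / 2 * n₂ := by
    have : 2 / ε ≤ n₂ :=
      le_trans hN₀ (by exact_mod_cast le_trans (le_trans (le_max_right _ _) (le_max_left _ _)) hn₂)
    rw [div_le_iff₀ hε] at this
    linarith
  set n : ℝ := (n₁ : ℝ) + n₂ with hn
  have hnpos : 0 < n := by rw [hn]; linarith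
  have hcast : ((n₁ + n₂ : ℕ) : ℝ) = n := by rw [hn]; push_cast; ring
  rw [hcast]
  have hadm := admissible_of k n₁ n₂ (by omega) t₁ t₂ ht₁ ht₂ ht
  rw [← hn] at hadm
  have hρ₁ : 0 ≤ ((n₁ : ℝ) / t₁) ^ (k - 1) := by positivity
  have hρ₂ : 0 ≤ ((n₂ : ℝ) / t₂) ^ (k - 1) := by positivity
  have hc₁0 : 0 ≤ c₁ := by
    have : 0 ≤ (c + ε) * ((n₁ : ℝ) / t₁) ^ (k - 1) := by positivity
    linarith
  have hc₂0 : 0 ≤ c₂ := by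
    have : 0 ≤ (c + ε) * ((n₂ : ℝ) / t₂) ^ (k - 1) := by positivity
    linarith
  have hm : (⌊c * n⌋₊ : ℝ) ≤ c * n := Nat.floor_le (by positivity)
  have hm₁ : (⌊c₁ * n₁⌋₊ : ℝ) ≤ c₁ * n₁ := Nat.floor_le (by positivity)
  have hm₂ : (⌊c₂ * n₂⌋₊ : ℝ) ≤ c₂ * n₂ := Nat.floor_le (by positivity)
  have hm₁' : c₁ * n₁ - 1 < (⌊c₁ * n₁⌋₊ : ℝ) := Nat.sub_one_lt_floor _
  have hm₂' : c₂ * n₂ - 1 < (⌊c₂ * n₂⌋₊ : ℝ) := Nat.sub_one_lt_floor _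
  have key : ∀ (x t : ℝ), 0 < x → 0 < t → n * (x ^ k / (n * t ^ (k - 1))) = x * (x / t) ^ (k - 1) := by
    intro x t hx ht
    obtain ⟨K, rfl⟩ : ∃ K, k = K + 1 := ⟨k - 1, by omega⟩
    simp only [Nat.add_sub_cancel]
    rw [div_pow, pow_succ]
    field_simp
  have hres := hN n₁ n₂ hNn₁ hNn₂ _ _ (by positivity) (by positivity) hadm ⌊c * n⌋₊ ⌊c₁ * n₁⌋₊
    ⌊c₂ * n₂⌋₊ (le_trans hm₁ (mul_le_mul_of_nonneg_right hc₁C hn₁pos.le))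
    (le_trans hm₂ (mul_le_mul_of_nonneg_right hc₂C hn₂pos.le))
    (by
      have h1 : ((⌊c * n⌋₊ : ℝ) + ε / 2 * n) * ((n₁ : ℝ) ^ k / (n * t₁ ^ (k - 1))) ≤
          ((c + ε) * n) * ((n₁ : ℝ) ^ k / (n * t₁ ^ (k - 1))) := by
        apply mul_le_mul_of_nonneg_right _ (by positivity)
        have : 0 ≤ ε * n := by positivity
        linarith
      have h2 : ((c + ε) * n) * ((n₁ : ℝ) ^ k / (n * t₁ ^ (k - 1))) =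
          (c + ε) * ((n₁ : ℝ) / t₁) ^ (k - 1) * n₁ := by
        rw [mul_assoc, key _ _ hn₁pos ht₁]; ring
      have h3 : ((c + ε) * ((n₁ : ℝ) / t₁) ^ (k - 1) + ε) * n₁ ≤ c₁ * n₁ :=
        mul_le_mul_of_nonneg_right hc₁ hn₁pos.le
      rw [← hn]
      nlinarith)
    (by
      have h1 : ((⌊c * n⌋₊ : ℝ) + ε / 2 * n) * ((n₂ : ℝ) ^ k / (n * t₂ ^ (k - 1))) ≤
          ((c + ε) * n) * ((n₂ : ℝ) ^ k / (n * t₂ ^ (k - 1))) := by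
        apply mul_le_mul_of_nonneg_right _ (by positivity)
        have : 0 ≤ ε * n := by positivity
        linarith
      have h2 : ((c + ε) * n) * ((n₂ : ℝ) ^ k / (n * t₂ ^ (k - 1))) =
          (c + ε) * ((n₂ : ℝ) / t₂) ^ (k - 1) * n₂ := by
        rw [mul_assoc, key _ _ hn₂pos ht₂]; ring
      have h3 : ((c + ε) * ((n₂ : ℝ) / t₂) ^ (k - 1) + ε) * n₂ ≤ c₂ * n₂ :=
        mul_le_mul_of_nonneg_right hc₂ hn₂pos.le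
      rw [← hn]
      nlinarith)
  linarith

end Vale.Agent.Lib.P170
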