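import Vale.Agent.Lib.P170.Numeric

/-!
The finite two-block inequality with explicit error terms.
-/

namespace Vale.Agent.Lib.P170

open Finset

lemma finite_ineq (k n₁ n₂ T m m₁ m₂ : ℕ) (hk₁ : k ≤ n₁) (hk₂ : k ≤ n₂) (hT : 0 < T)
    (a b₁ b₂ t₀ t₁ t₂ E : ℝ) (ha0 : 0 ≤ a) (haT : a ≤ T) (hb₁0 : 0 ≤ b₁) (hb₁T : b₁ ≤ T)
    (hb₂0 : 0 ≤ b₂) (hb₂T : b₂ ≤ T) (ht₀ : 0 < t₀) (ht₁ : 0 < t₁) (ht₂ : 0 < t₂)
    (hm : (m : ℝ) + t₀ ≤ a) (hm₁ : b₁ + t₁ ≤ m₁) (hm₂ : b₂ + t₂ ≤ m₂) (hE : 0 ≤ E)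
    (H : ∀ f₁ ≤ n₁, ∀ f₂ ≤ n₂,
      a * cr k (f₁ + f₂) (n₁ + n₂) ≤ b₁ * cr k f₁ n₁ + b₂ * cr k f₂ n₂ + E) :
    satProb k n₁ m₁ * satProb k n₂ m₂ - (a / t₀ ^ 2 + b₁ / t₁ ^ 2 + b₂ / t₂ ^ 2 + E + b₁ * b₂ / T) ≤
      satProb k (n₁ + n₂) m := by
  have hk : k ≤ n₁ + n₂ := le_trans hk₁ (Nat.le_add_right _ _)
  have hT' : (0 : ℝ) < T := by exact_mod_cast hT
  have h2k : (1 : ℝ) ≤ 2 ^ k := one_le_pow₀ (by norm_num)
  have h2k0 : (0 : ℝ) < 2 ^ k := by positivity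
  have hcore := core n₁ n₂ k T hk₁ hk₂ (a / T) (b₁ / T) (b₂ / T) (E / T)
    (by positivity) ((div_le_one hT').mpr haT) (by positivity) ((div_le_one hT').mpr hb₁T)
    (by positivity) ((div_le_one hT').mpr hb₂T) (by positivity)
    (by
      intro f₁ hf₁ f₂ hf₂
      have h := H f₁ hf₁ f₂ hf₂
      rw [kr_eq, kr_eq, kr_eq]
      have e1 : a / T * (cr k (f₁ + f₂) (n₁ + n₂) / 2 ^ k) =
          (a * cr k (f₁ + f₂) (n₁ + n₂)) / (T * 2 ^ k) := by field_simp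
      have e2 : b₁ / T * (cr k f₁ n₁ / 2 ^ k) + b₂ / T * (cr k f₂ n₂ / 2 ^ k) + E / T =
          (b₁ * cr k f₁ n₁ + b₂ * cr k f₂ n₂ + E * 2 ^ k) / (T * 2 ^ k) := by field_simp
      rw [e1, e2]
      apply div_le_div_of_nonneg_right _ (by positivity)
      nlinarith)
  have hTa : (T : ℝ) * (a / T) = a := by field_simp
  have hTb₁ : (T : ℝ) * (b₁ / T) = b₁ := by field_simp
  have hTb₂ : (T : ℝ) * (b₂ / T) = b₂ := by field_simp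
  have h0 := bin_avg_le (θ := a / T) (by positivity) ((div_le_one hT').mpr haT) T
    (satProb_anti hk) (satProb_le_one hk) (satProb_nonneg k (n₁ + n₂)) m ht₀ (by rw [hTa]; exact hm)
  have h1 := le_bin_avg (θ := b₁ / T) (by positivity) ((div_le_one hT').mpr hb₁T) T
    (satProb_anti hk₁) (satProb_le_one hk₁) (satProb_nonneg k n₁) m₁ ht₁ (by rw [hTb₁]; exact hm₁)
  have h2 := le_bin_avg (θ := b₂ / T) (by positivity) ((div_le_one hT').mpr hb₂T) T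
    (satProb_anti hk₂) (satProb_le_one hk₂) (satProb_nonneg k n₂) m₂ ht₂ (by rw [hTb₂]; exact hm₂)
  rw [hTa] at h0
  rw [hTb₁] at h1
  rw [hTb₂] at h2
  set S₁ := ∑ a ∈ range (T + 1), bin T (b₁ / T) a * satProb k n₁ a with hS₁
  set S₂ := ∑ b ∈ range (T + 1), bin T (b₂ / T) b * satProb k n₂ b with hS₂
  have hS₁0 : 0 ≤ S₁ := Finset.sum_nonneg fun j _ =>
    mul_nonneg (bin_nonneg (by positivity) ((div_le_one hT').mpr hb₁T) T j) (satProb_nonneg _ _ _)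
  have hS₂0 : 0 ≤ S₂ := Finset.sum_nonneg fun j _ =>
    mul_nonneg (bin_nonneg (by positivity) ((div_le_one hT').mpr hb₂T) T j) (satProb_nonneg _ _ _)
  have hP₁0 := satProb_nonneg k n₁ m₁
  have hP₂0 := satProb_nonneg k n₂ m₂
  have hP₁1 := satProb_le_one hk₁ m₁
  have hP₂1 := satProb_le_one hk₂ m₂
  have hs₁ : 0 ≤ b₁ / t₁ ^ 2 := by positivity
  have hs₂ : 0 ≤ b₂ / t₂ ^ 2 := by positivity
  have hprod : satProb k n₁ m₁ * satProb k n₂ m₂ - b₁ / t₁ ^ 2 - b₂ / t₂ ^ 2 ≤ S₁ * S₂ := by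
    rcases le_total (b₁ / t₁ ^ 2) (satProb k n₁ m₁) with c1 | c1
    · rcases le_total (b₂ / t₂ ^ 2) (satProb k n₂ m₂) with c2 | c2
      · have : (satProb k n₁ m₁ - b₁ / t₁ ^ 2) * (satProb k n₂ m₂ - b₂ / t₂ ^ 2) ≤ S₁ * S₂ :=
          mul_le_mul h1 h2 (by linarith) hS₁0
        nlinarith
      · have : 0 ≤ S₁ * S₂ := mul_nonneg hS₁0 hS₂0
        nlinarith
    · have : 0 ≤ S₁ * S₂ := mul_nonneg hS₁0 hS₂0
      nlinarith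
  have hTerm : (T : ℝ) * (E / T + b₁ / T * (b₂ / T)) = E + b₁ * b₂ / T := by field_simp
  rw [hTerm] at hcore
  linarith

end Vale.Agent.Lib.P170
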