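import Vale.Agent.Lib.P170.Finite

/-!
The asymptotic two-block inequality with abstract admissible weights.
-/

namespace Vale.Agent.Lib.P170

open Finset

/-- Jensen-type admissibility of the block weights `w₁, w₂`. -/
def Admissible (k n₁ n₂ : ℕ) (w₁ w₂ : ℝ) : Prop :=
  ∀ x₁ x₂ : ℝ, 0 ≤ x₁ → 0 ≤ x₂ →
    (((n₁ : ℝ) * x₁ + n₂ * x₂) / ((n₁ : ℝ) + n₂)) ^ k ≤ w₁ * x₁ ^ k + w₂ * x₂ ^ k

lemma hypH (k n₁ n₂ : ℕ) (hk : 1 ≤ k) (hk₁ : k ≤ n₁) (hk₂ : k ≤ n₂) (w₁ w₂ : ℝ)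
    (hw₁ : 0 ≤ w₁) (hw₂ : 0 ≤ w₂) (hadm : Admissible k n₁ n₂ w₁ w₂) (a b₁ b₂ ε₀ : ℝ)
    (hε₀ : 0 < ε₀) (ha : 0 ≤ a) (h₁ : a * (1 + ε₀) * w₁ ≤ b₁) (h₂ : a * (1 + ε₀) * w₂ ≤ b₂) :
    ∀ f₁ ≤ n₁, ∀ f₂ ≤ n₂, a * cr k (f₁ + f₂) (n₁ + n₂) ≤
      b₁ * cr k f₁ n₁ + b₂ * cr k f₂ n₂ +
        (b₁ * (((k : ℝ) ^ 2 * (1 + ε₀) / ε₀) / n₁) ^ k +
          b₂ * (((k : ℝ) ^ 2 * (1 + ε₀) / ε₀) / n₂) ^ k) := by
  intro f₁ hf₁ f₂ hf₂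
  set K₀ : ℝ := (k : ℝ) ^ 2 * (1 + ε₀) / ε₀ with hK₀
  have hn₁ : (0 : ℝ) < n₁ := by
    have : 0 < n₁ := by omega
    exact_mod_cast this
  have hn₂ : (0 : ℝ) < n₂ := by
    have : 0 < n₂ := by omega
    exact_mod_cast this
  have c0 : cr k (f₁ + f₂) (n₁ + n₂) ≤ (((f₁ + f₂ : ℕ) : ℝ) / ((n₁ + n₂ : ℕ) : ℝ)) ^ k :=
    cr_le_pow (by omega) (by omega)
  have c1 : (((f₁ + f₂ : ℕ) : ℝ) / ((n₁ + n₂ : ℕ) : ℝ)) =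
      ((n₁ : ℝ) * ((f₁ : ℝ) / n₁) + n₂ * ((f₂ : ℝ) / n₂)) / ((n₁ : ℝ) + n₂) := by
    push_cast
    field_simp
  rw [c1] at c0
  have c2 := hadm ((f₁ : ℝ) / n₁) ((f₂ : ℝ) / n₂) (by positivity) (by positivity)
  have d1 := pow_le_cr_add (f := f₁) hk hk₁ hε₀
  have d2 := pow_le_cr_add (f := f₂) hk hk₂ hε₀
  rw [← hK₀] at d1 d2
  have hK₀0 : 0 ≤ K₀ := by rw [hK₀]; positivity
  have e1 : 0 ≤ (K₀ / n₁) ^ k := by positivity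
  have e2 : 0 ≤ (K₀ / n₂) ^ k := by positivity
  have r1 := cr_nonneg k f₁ n₁
  have r2 := cr_nonneg k f₂ n₂
  have aw1 : 0 ≤ a * w₁ := mul_nonneg ha hw₁
  have aw2 : 0 ≤ a * w₂ := mul_nonneg ha hw₂
  have g1 : a * w₁ ≤ b₁ := by nlinarith
  have g2 : a * w₂ ≤ b₂ := by nlinarith
  have s0 : a * cr k (f₁ + f₂) (n₁ + n₂) ≤
      a * (w₁ * ((f₁ : ℝ) / n₁) ^ k + w₂ * ((f₂ : ℝ) / n₂) ^ k) :=
    mul_le_mul_of_nonneg_left (le_trans c0 c2) ha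
  have s1 : a * w₁ * ((f₁ : ℝ) / n₁) ^ k ≤ b₁ * cr k f₁ n₁ + b₁ * (K₀ / n₁) ^ k := by
    calc a * w₁ * ((f₁ : ℝ) / n₁) ^ k ≤ a * w₁ * ((1 + ε₀) * cr k f₁ n₁ + (K₀ / n₁) ^ k) :=
          mul_le_mul_of_nonneg_left d1 aw1
      _ = (a * (1 + ε₀) * w₁) * cr k f₁ n₁ + (a * w₁) * (K₀ / n₁) ^ k := by ring
      _ ≤ b₁ * cr k f₁ n₁ + b₁ * (K₀ / n₁) ^ k :=
          add_le_add (mul_le_mul_of_nonneg_right h₁ r1) (mul_le_mul_of_nonneg_right g1 e1)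
  have s2 : a * w₂ * ((f₂ : ℝ) / n₂) ^ k ≤ b₂ * cr k f₂ n₂ + b₂ * (K₀ / n₂) ^ k := by
    calc a * w₂ * ((f₂ : ℝ) / n₂) ^ k ≤ a * w₂ * ((1 + ε₀) * cr k f₂ n₂ + (K₀ / n₂) ^ k) :=
          mul_le_mul_of_nonneg_left d2 aw2
      _ = (a * (1 + ε₀) * w₂) * cr k f₂ n₂ + (a * w₂) * (K₀ / n₂) ^ k := by ring
      _ ≤ b₂ * cr k f₂ n₂ + b₂ * (K₀ / n₂) ^ k :=
          add_le_add (mul_le_mul_of_nonneg_right h₂ r2) (mul_le_mul_of_nonneg_right g2 e2)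
  nlinarith

lemma powbound {K₀ : ℝ} (hK₀0 : 0 ≤ K₀) {k : ℕ} (hk : 2 ≤ k) (x : ℝ) (hx : 1 ≤ x) :
    x * (K₀ / x) ^ k ≤ K₀ ^ k / x := by
  have hx0 : 0 < x := by linarith
  rw [div_pow]
  have hxk : x ^ 2 ≤ x ^ k := pow_le_pow_right₀ hx hk
  have hxk0 : 0 < x ^ k := by positivity
  rw [mul_div_assoc', div_le_div_iff₀ hxk0 hx0]
  have h : 0 ≤ K₀ ^ k := by positivity
  calc x * K₀ ^ k * x = K₀ ^ k * x ^ 2 := by ring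
    _ ≤ K₀ ^ k * x ^ k := mul_le_mul_of_nonneg_left hxk h

lemma cheb_bound {C ε b x : ℝ} (hε : 0 < ε) (hx : 0 < x) (hb : b ≤ C * x) :
    b / (ε / 2 * x) ^ 2 ≤ 4 * C / ε ^ 2 / x := by
  have h1 : b / (ε / 2 * x) ^ 2 ≤ (C * x) / (ε / 2 * x) ^ 2 :=
    div_le_div_of_nonneg_right hb (by positivity)
  have h2 : (C * x) / (ε / 2 * x) ^ 2 = 4 * C / ε ^ 2 / x := by field_simp; ring
  linarith

lemma tiny_bound {C K₀ b x : ℝ} (hC : 0 < C) (hK₀0 : 0 ≤ K₀) {k : ℕ} (hk : 2 ≤ k) (hx : 1 ≤ x)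
    (hb : b ≤ C * x) : b * (K₀ / x) ^ k ≤ C * K₀ ^ k / x := by
  have hx0 : 0 < x := by linarith
  calc b * (K₀ / x) ^ k ≤ (C * x) * (K₀ / x) ^ k :=
        mul_le_mul_of_nonneg_right hb (by positivity)
    _ = C * (x * (K₀ / x) ^ k) := by ring
    _ ≤ C * (K₀ ^ k / x) := mul_le_mul_of_nonneg_left (powbound hK₀0 hk _ hx) hC.le
    _ = C * K₀ ^ k / x := by ring

/-- The two-block inequality with explicit error terms. -/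
lemma main_param (k : ℕ) (hk : 2 ≤ k) (C ε : ℝ) (hC : 0 < C) (hε : 0 < ε) (n₁ n₂ : ℕ)
    (hk₁ : k ≤ n₁) (hk₂ : k ≤ n₂) (w₁ w₂ : ℝ) (hw₁ : 0 ≤ w₁) (hw₂ : 0 ≤ w₂)
    (hadm : Admissible k n₁ n₂ w₁ w₂) (m m₁ m₂ : ℕ) (hm₁C : (m₁ : ℝ) ≤ C * n₁)
    (hm₂C : (m₂ : ℝ) ≤ C * n₂)
    (hc₁ : ((m : ℝ) + ε * ((n₁ : ℝ) + n₂)) * w₁ + ε * n₁ ≤ m₁)
    (hc₂ : ((m : ℝ) + ε * ((n₁ : ℝ) + n₂)) * w₂ + ε * n₂ ≤ m₂) :
    satProb k n₁ m₁ * satProb k n₂ m₂ -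
      (4 * C / ε ^ 2 / n₁ + 4 * C / ε ^ 2 / n₁ + 4 * C / ε ^ 2 / n₂ +
        (C * ((k : ℝ) ^ 2 * (1 + ε / (2 * C)) / (ε / (2 * C))) ^ k / n₁ +
          C * ((k : ℝ) ^ 2 * (1 + ε / (2 * C)) / (ε / (2 * C))) ^ k / n₂) + ε / 8) ≤
      satProb k (n₁ + n₂) m := by
  set ε₀ : ℝ := ε / (2 * C) with hε₀
  have hε₀pos : 0 < ε₀ := by rw [hε₀]; positivity
  set K₀ : ℝ := (k : ℝ) ^ 2 * (1 + ε₀) / ε₀ with hK₀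
  have hK₀0 : 0 ≤ K₀ := by rw [hK₀]; positivity
  have h1n₁ : 1 ≤ n₁ := by omega
  have h1n₂ : 1 ≤ n₂ := by omega
  have hn₁ : (1 : ℝ) ≤ n₁ := by exact_mod_cast h1n₁
  have hn₂ : (1 : ℝ) ≤ n₂ := by exact_mod_cast h1n₂
  set n : ℝ := (n₁ : ℝ) + n₂ with hn
  have hnpos : 0 < n := by rw [hn]; linarith
  have hm0 : (0 : ℝ) ≤ m := by positivity
  -- `1 ≤ w₁ + w₂`
  have hw : 1 ≤ w₁ + w₂ := by
    have := hadm 1 1 zero_le_one zero_le_one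
    simp only [mul_one, one_pow] at this
    rw [div_self (by rw [← hn]; exact hnpos.ne'), one_pow] at this
    exact this
  have hq : 0 ≤ (m : ℝ) + ε * n := by positivity
  have hεn₁ : 0 ≤ ε * n₁ := by positivity
  have hεn₂ : 0 ≤ ε * n₂ := by positivity
  have hεn : ε * n = ε * n₁ + ε * n₂ := by rw [hn]; ring
  -- `m + ε n ≤ C n`
  have hmn : (m : ℝ) + ε * n ≤ C * n := by
    have h1 : ((m : ℝ) + ε * n) * (w₁ + w₂) ≤ C * n := by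
      have e : C * n = C * n₁ + C * n₂ := by rw [hn]; ring
      rw [mul_add, e]
      linarith
    have h2 : ((m : ℝ) + ε * n) * 1 ≤ ((m : ℝ) + ε * n) * (w₁ + w₂) :=
      mul_le_mul_of_nonneg_left hw hq
    linarith
  set a : ℝ := (m : ℝ) + ε / 2 * n with ha
  set b₁ : ℝ := (m₁ : ℝ) - ε / 2 * n₁ with hb₁
  set b₂ : ℝ := (m₂ : ℝ) - ε / 2 * n₂ with hb₂
  have ha0 : 0 ≤ a := by rw [ha]; positivity
  have haC : a ≤ C * n := by rw [ha]; linarith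
  have hb₁0 : 0 ≤ b₁ := by
    have : 0 ≤ ((m : ℝ) + ε * n) * w₁ := mul_nonneg hq hw₁
    rw [hb₁]; linarith
  have hb₂0 : 0 ≤ b₂ := by
    have : 0 ≤ ((m : ℝ) + ε * n) * w₂ := mul_nonneg hq hw₂
    rw [hb₂]; linarith
  have hb₁C : b₁ ≤ C * n₁ := by rw [hb₁]; linarith
  have hb₂C : b₂ ≤ C * n₂ := by rw [hb₂]; linarith
  -- `a (1 + ε₀) ≤ m + ε n`
  have haε : a * (1 + ε₀) ≤ (m : ℝ) + ε * n := by
    have h1 : a * ε₀ ≤ ε / 2 * n := by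
      calc a * ε₀ ≤ (C * n) * ε₀ := mul_le_mul_of_nonneg_right haC hε₀pos.le
        _ = ε / 2 * n := by rw [hε₀]; field_simp
    rw [mul_add, mul_one]
    rw [ha] at h1 ⊢
    linarith
  have h₁ : a * (1 + ε₀) * w₁ ≤ b₁ := by
    have : a * (1 + ε₀) * w₁ ≤ ((m : ℝ) + ε * n) * w₁ := mul_le_mul_of_nonneg_right haε hw₁
    rw [hb₁]; linarith
  have h₂ : a * (1 + ε₀) * w₂ ≤ b₂ := by
    have : a * (1 + ε₀) * w₂ ≤ ((m : ℝ) + ε * n) * w₂ := mul_le_mul_of_nonneg_right haε hw₂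
    rw [hb₂]; linarith
  obtain ⟨T, hT⟩ := exists_nat_ge (a + b₁ + b₂ + 8 * (b₁ * b₂) / ε + 1)
  have hbb : 0 ≤ 8 * (b₁ * b₂) / ε := by positivity
  have hTpos : (0 : ℝ) < T := by linarith
  have hT0 : 0 < T := by exact_mod_cast hTpos
  have hn₁pos : (0 : ℝ) < n₁ := by linarith
  have hn₂pos : (0 : ℝ) < n₂ := by linarith
  have hfin := finite_ineq k n₁ n₂ T m m₁ m₂ hk₁ hk₂ hT0 a b₁ b₂ (ε / 2 * n) (ε / 2 * n₁)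
    (ε / 2 * n₂) (b₁ * (K₀ / n₁) ^ k + b₂ * (K₀ / n₂) ^ k) ha0 (by linarith) hb₁0 (by linarith)
    hb₂0 (by linarith) (by positivity) (by positivity) (by positivity) (by rw [ha])
    (by rw [hb₁]; linarith) (by rw [hb₂]; linarith) (by positivity)
    (hypH k n₁ n₂ (by omega) hk₁ hk₂ w₁ w₂ hw₁ hw₂ hadm a b₁ b₂ ε₀ hε₀pos ha0 h₁ h₂)
  -- error estimates
  have E0 : a / (ε / 2 * n) ^ 2 ≤ 4 * C / ε ^ 2 / n₁ := by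
    have h3 : 4 * C / ε ^ 2 / n ≤ 4 * C / ε ^ 2 / n₁ :=
      div_le_div_of_nonneg_left (by positivity) hn₁pos (by rw [hn]; linarith)
    exact le_trans (cheb_bound hε hnpos haC) h3
  have E1 : b₁ / (ε / 2 * n₁) ^ 2 ≤ 4 * C / ε ^ 2 / n₁ := cheb_bound hε hn₁pos hb₁C
  have E2 : b₂ / (ε / 2 * n₂) ^ 2 ≤ 4 * C / ε ^ 2 / n₂ := cheb_bound hε hn₂pos hb₂C
  have E3 : b₁ * (K₀ / n₁) ^ k ≤ C * K₀ ^ k / n₁ := tiny_bound hC hK₀0 hk hn₁ hb₁C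
  have E4 : b₂ * (K₀ / n₂) ^ k ≤ C * K₀ ^ k / n₂ := tiny_bound hC hK₀0 hk hn₂ hb₂C
  have E5 : b₁ * b₂ / T ≤ ε / 8 := by
    rw [div_le_iff₀ hTpos]
    have h1 : 8 * (b₁ * b₂) / ε ≤ T := by linarith
    rw [div_le_iff₀ hε] at h1
    linarith
  linarith

/-- The two-block inequality with abstract admissible weights. -/
theorem main_abstract (k : ℕ) (hk : 2 ≤ k) (C ε : ℝ) (hC : 0 < C) (hε : 0 < ε) :
    ∃ N : ℕ, ∀ n₁ n₂ : ℕ, N ≤ n₁ → N ≤ n₂ → ∀ w₁ w₂ : ℝ, 0 ≤ w₁ → 0 ≤ w₂ →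
      Admissible k n₁ n₂ w₁ w₂ → ∀ m m₁ m₂ : ℕ, (m₁ : ℝ) ≤ C * n₁ → (m₂ : ℝ) ≤ C * n₂ →
      ((m : ℝ) + ε * ((n₁ : ℝ) + n₂)) * w₁ + ε * n₁ ≤ m₁ →
      ((m : ℝ) + ε * ((n₁ : ℝ) + n₂)) * w₂ + ε * n₂ ≤ m₂ →
      satProb k n₁ m₁ * satProb k n₂ m₂ - ε ≤ satProb k (n₁ + n₂) m := by
  set K : ℝ := C * ((k : ℝ) ^ 2 * (1 + ε / (2 * C)) / (ε / (2 * C))) ^ k with hK
  have hK0 : 0 ≤ K := by rw [hK]; positivity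
  set D : ℝ := 8 * C / ε ^ 2 + K with hD
  have hD0 : 0 ≤ D := by rw [hD]; positivity
  obtain ⟨N₀, hN₀⟩ := exists_nat_ge (4 * D / ε)
  refine ⟨max (max k 1) N₀, ?_⟩
  intro n₁ n₂ hN₁ hN₂ w₁ w₂ hw₁ hw₂ hadm m m₁ m₂ hm₁C hm₂C hc₁ hc₂
  have hk₁ : k ≤ n₁ := le_trans (le_trans (le_max_left _ _) (le_max_left _ _)) hN₁
  have hk₂ : k ≤ n₂ := le_trans (le_trans (le_max_left _ _) (le_max_left _ _)) hN₂
  have h1n₁ : 1 ≤ n₁ := le_trans (le_trans (le_max_right _ _) (le_max_left _ _)) hN₁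
  have h1n₂ : 1 ≤ n₂ := le_trans (le_trans (le_max_right _ _) (le_max_left _ _)) hN₂
  have hn₁pos : (0 : ℝ) < n₁ := by exact_mod_cast h1n₁
  have hn₂pos : (0 : ℝ) < n₂ := by exact_mod_cast h1n₂
  have hN₀₁ : 4 * D / ε ≤ n₁ := le_trans hN₀ (by exact_mod_cast le_trans (le_max_right _ _) hN₁)
  have hN₀₂ : 4 * D / ε ≤ n₂ := le_trans hN₀ (by exact_mod_cast le_trans (le_max_right _ _) hN₂)
  have hmain := main_param k hk C ε hC hε n₁ n₂ hk₁ hk₂ w₁ w₂ hw₁ hw₂ hadm m m₁ m₂ hm₁C hm₂C hc₁ hc₂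
  rw [← hK] at hmain
  have F1 : D / n₁ ≤ ε / 4 := by
    rw [div_le_iff₀ hn₁pos]
    rw [div_le_iff₀ hε] at hN₀₁
    linarith
  have F2 : D / n₂ ≤ ε / 4 := by
    rw [div_le_iff₀ hn₂pos]
    rw [div_le_iff₀ hε] at hN₀₂
    linarith
  have G1 : 4 * C / ε ^ 2 / n₁ + 4 * C / ε ^ 2 / n₁ + K / n₁ = D / n₁ := by
    rw [hD]; ring
  have G2 : 4 * C / ε ^ 2 / n₂ + K / n₂ ≤ D / n₂ := by
    have : 4 * C / ε ^ 2 / n₂ + K / n₂ = (4 * C / ε ^ 2 + K) / n₂ := by ring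
    rw [this]
    apply div_le_div_of_nonneg_right _ hn₂pos.le
    rw [hD]
    have h0 : 0 ≤ C / ε ^ 2 := by positivity
    have e : 8 * C / ε ^ 2 = 8 * (C / ε ^ 2) := by ring
    have e' : 4 * C / ε ^ 2 = 4 * (C / ε ^ 2) := by ring
    rw [e, e']
    linarith
  linarith

end Vale.Agent.Lib.P170
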