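import Vale.Agent.Lib.P170.Tail

/-!
Numerical inequalities for ratios of binomial coefficients.
-/

namespace Vale.Agent.Lib.P170

open Finset

/-- ratio of binomial coefficients -/
noncomputable def cr (k f n : ℕ) : ℝ := (f.choose k : ℝ) / (n.choose k : ℝ)

lemma cr_nonneg (k f n : ℕ) : 0 ≤ cr k f n := by unfold cr; positivity

lemma kr_eq (k f n : ℕ) : kr k f n = cr k f n / 2 ^ k := by
  unfold kr cr
  rw [div_div, mul_comm]

lemma cr_eq_desc (k f n : ℕ) : cr k f n = (f.descFactorial k : ℝ) / (n.descFactorial k : ℝ) := by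
  unfold cr
  rw [Nat.descFactorial_eq_factorial_mul_choose, Nat.descFactorial_eq_factorial_mul_choose]
  push_cast
  have : (k.factorial : ℝ) ≠ 0 := by positivity
  rw [mul_div_mul_left _ _ this]

lemma desc_mul_pow_le (k : ℕ) {f n : ℕ} (h : f ≤ n) :
    f.descFactorial k * n ^ k ≤ n.descFactorial k * f ^ k := by
  induction k with
  | zero => simp
  | succ k ih =>
    rw [Nat.descFactorial_succ, Nat.descFactorial_succ, pow_succ, pow_succ]
    have h1 : (f - k) * n ≤ (n - k) * f := by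
      rcases le_total k f with hk | hk
      · obtain ⟨d, rfl⟩ := Nat.exists_eq_add_of_le hk
        obtain ⟨e, rfl⟩ := Nat.exists_eq_add_of_le h
        have e1 : k + d - k = d := by omega
        have e2 : k + d + e - k = d + e := by omega
        rw [e1, e2]
        nlinarith
      · rw [Nat.sub_eq_zero_of_le hk]; simp
    calc (f - k) * f.descFactorial k * (n ^ k * n)
        = ((f - k) * n) * (f.descFactorial k * n ^ k) := by ring
      _ ≤ ((n - k) * f) * (n.descFactorial k * f ^ k) := Nat.mul_le_mul h1 ih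
      _ = (n - k) * n.descFactorial k * (f ^ k * f) := by ring

lemma cr_le_pow {k f n : ℕ} (hkn : k ≤ n) (h : f ≤ n) : cr k f n ≤ ((f : ℝ) / n) ^ k := by
  rw [cr_eq_desc, div_pow]
  have hn : 0 < n.descFactorial k := Nat.descFactorial_pos.mpr hkn
  rcases Nat.eq_zero_or_pos n with rfl | hn0
  · have : k = 0 := by omega
    subst this
    simp
  rw [div_le_div_iff₀ (by exact_mod_cast hn) (by positivity)]
  have := desc_mul_pow_le k h
  have h2 : ((f.descFactorial k * n ^ k : ℕ) : ℝ) ≤ ((n.descFactorial k * f ^ k : ℕ) : ℝ) := by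
    exact_mod_cast this
  push_cast at h2
  linarith

lemma pow_le_cr {k f n : ℕ} (hkn : k ≤ n) (hkf : k ≤ f) :
    (((f : ℝ) - k) / n) ^ k ≤ cr k f n := by
  rw [cr_eq_desc, div_pow]
  have hn : 0 < n.descFactorial k := Nat.descFactorial_pos.mpr hkn
  rcases Nat.eq_zero_or_pos n with rfl | hn0
  · have : k = 0 := by omega
    subst this
    simp
  rw [div_le_div_iff₀ (by positivity) (by exact_mod_cast hn)]
  have h1 : ((f : ℝ) - k) ^ k ≤ (f.descFactorial k : ℝ) := by
    have := Nat.pow_sub_le_descFactorial f k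
    have h2 : (((f + 1 - k) ^ k : ℕ) : ℝ) ≤ (f.descFactorial k : ℝ) := by exact_mod_cast this
    refine le_trans ?_ h2
    push_cast
    apply pow_le_pow_left₀ (by
      have : (k : ℝ) ≤ f := by exact_mod_cast hkf
      linarith)
    rw [Nat.cast_sub (by omega)]
    push_cast
    linarith
  have h3 : (n.descFactorial k : ℝ) ≤ (n : ℝ) ^ k := by
    exact_mod_cast Nat.descFactorial_le_pow n k
  have h4 : (0 : ℝ) ≤ ((f : ℝ) - k) ^ k := by
    apply pow_nonneg
    have : (k : ℝ) ≤ f := by exact_mod_cast hkf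
    linarith
  calc ((f : ℝ) - k) ^ k * (n.descFactorial k : ℝ) ≤ ((f : ℝ) - k) ^ k * (n : ℝ) ^ k :=
        mul_le_mul_of_nonneg_left h3 h4
    _ ≤ (f.descFactorial k : ℝ) * (n : ℝ) ^ k := mul_le_mul_of_nonneg_right h1 (by positivity)

/-- `(f/n)^k` is at most `(1+ε₀)` times the ratio of binomial coefficients, up to a tiny error. -/
lemma pow_le_cr_add {k f n : ℕ} (hk : 1 ≤ k) (hkn : k ≤ n) {ε₀ : ℝ} (hε : 0 < ε₀) :
    ((f : ℝ) / n) ^ k ≤ (1 + ε₀) * cr k f n + (((k : ℝ) ^ 2 * (1 + ε₀) / ε₀) / n) ^ k := by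
  set K₀ : ℝ := (k : ℝ) ^ 2 * (1 + ε₀) / ε₀ with hK₀
  have hn0 : (0 : ℝ) < n := by
    have : 0 < n := by omega
    exact_mod_cast this
  have hk0 : (1 : ℝ) ≤ k := by exact_mod_cast hk
  have hcr := cr_nonneg k f n
  rcases lt_or_ge (f : ℝ) K₀ with hlt | hge
  · have h1 : ((f : ℝ) / n) ^ k ≤ (K₀ / n) ^ k := by
      apply pow_le_pow_left₀ (by positivity)
      exact div_le_div_of_nonneg_right hlt.le hn0.le
    have : 0 ≤ (1 + ε₀) * cr k f n := by positivity
    linarith
  · have hK₀k : (k : ℝ) ^ 2 ≤ K₀ := by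
      rw [hK₀, le_div_iff₀ hε]
      nlinarith [sq_nonneg (k : ℝ)]
    have hfk2 : (k : ℝ) ^ 2 ≤ f := le_trans hK₀k hge
    have hfk : (k : ℝ) ≤ f := by nlinarith
    have hkf : k ≤ f := by exact_mod_cast hfk
    have hf0 : (0 : ℝ) < f := by linarith
    have h1 := pow_le_cr hkn hkf
    have hB : 1 + (k : ℝ) * (-(k : ℝ) / f) ≤ (1 + (-(k : ℝ) / f)) ^ k := by
      apply one_add_mul_le_pow
      rw [neg_div, neg_le_neg_iff]
      have : (k : ℝ) / f ≤ 1 := by rw [div_le_one hf0]; exact hfk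
      linarith
    have hC : 1 / (1 + ε₀) ≤ 1 + (k : ℝ) * (-(k : ℝ) / f) := by
      have e1 : (k : ℝ) * (-(k : ℝ) / f) = -((k : ℝ) ^ 2 / f) := by ring
      rw [e1]
      have e2 : (k : ℝ) ^ 2 / f ≤ ε₀ / (1 + ε₀) := by
        rw [div_le_div_iff₀ hf0 (by linarith)]
        have : (k : ℝ) ^ 2 * (1 + ε₀) = K₀ * ε₀ := by
          rw [hK₀]; field_simp
        rw [this]
        nlinarith
      have e3 : 1 / (1 + ε₀) = 1 - ε₀ / (1 + ε₀) := by
        field_simp
        ring
      linarith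
    have hD : (((f : ℝ) - k) / n) ^ k = ((f : ℝ) / n) ^ k * (1 + (-(k : ℝ) / f)) ^ k := by
      rw [← mul_pow]
      congr 1
      field_simp
      ring
    have hE : ((f : ℝ) / n) ^ k * (1 / (1 + ε₀)) ≤ cr k f n := by
      calc ((f : ℝ) / n) ^ k * (1 / (1 + ε₀)) ≤ ((f : ℝ) / n) ^ k * (1 + (-(k : ℝ) / f)) ^ k :=
            mul_le_mul_of_nonneg_left (le_trans hC hB) (by positivity)
        _ = (((f : ℝ) - k) / n) ^ k := hD.symm
        _ ≤ cr k f n := h1
    have hF : ((f : ℝ) / n) ^ k ≤ (1 + ε₀) * cr k f n := by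
      have h1e : (0 : ℝ) < 1 + ε₀ := by linarith
      calc ((f : ℝ) / n) ^ k = (1 + ε₀) * (((f : ℝ) / n) ^ k * (1 / (1 + ε₀))) := by
            field_simp
        _ ≤ (1 + ε₀) * cr k f n := mul_le_mul_of_nonneg_left hE h1e.le
    have : 0 ≤ (K₀ / n) ^ k := by
      apply pow_nonneg
      apply div_nonneg _ hn0.le
      rw [hK₀]; positivity
    linarith

end Vale.Agent.Lib.P170
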