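import Vale.Agent.Lib.P170.Density

/-!
Approximate subadditivity for threshold sequences.
-/

namespace Vale.Agent.Lib.P170

open Finset Filter Topology

/-- Far above the first moment threshold the satisfiability probability is at most `2/5`. -/
lemma satProb_small {k n : ℕ} (hkn : k ≤ n) (hn : 1 ≤ n) {m : ℕ} (hm : 2 ^ (k + 2) * n ≤ m) :
    satProb k n m ≤ 2 / 5 := by
  have h1 : satProb k n m ≤ satProb k n (2 ^ (k + 2) * n) := satProb_anti hkn hm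
  have h2 := satProb_le_firstMoment hkn (2 ^ (k + 2) * n)
  have hx : (1 - 1 / 2 ^ k : ℝ) ≤ Real.exp (-(1 / 2 ^ k)) := by
    have := Real.add_one_le_exp (-(1 / 2 ^ k : ℝ))
    linarith
  have hx0 : (0 : ℝ) ≤ 1 - 1 / 2 ^ k := by
    have : (1 : ℝ) / 2 ^ k ≤ 1 := by
      rw [div_le_one (by positivity)]
      exact one_le_pow₀ (by norm_num)
    linarith
  have h3 : (1 - 1 / 2 ^ k : ℝ) ^ (2 ^ (k + 2) * n) ≤ Real.exp (-4) ^ n := by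
    calc (1 - 1 / 2 ^ k : ℝ) ^ (2 ^ (k + 2) * n) ≤ Real.exp (-(1 / 2 ^ k)) ^ (2 ^ (k + 2) * n) :=
          pow_le_pow_left₀ hx0 hx _
      _ = Real.exp (-4) ^ n := by
          rw [pow_mul, ← Real.exp_nat_mul]
          congr 2
          push_cast
          rw [pow_add]
          field_simp
          norm_num
  have h4 : Real.exp (-4) ≤ 1 / 5 := by
    rw [Real.exp_neg, inv_eq_one_div]
    apply one_div_le_one_div_of_le (by norm_num)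
    have := Real.add_one_le_exp (4 : ℝ)
    linarith
  have h5 : Real.exp (-4) ^ n ≤ (1 / 5 : ℝ) ^ n := pow_le_pow_left₀ (Real.exp_pos _).le h4 _
  have h6 : (2 : ℝ) ^ n * (1 / 5 : ℝ) ^ n ≤ 2 / 5 := by
    rw [← mul_pow]
    calc ((2 : ℝ) * (1 / 5)) ^ n ≤ ((2 : ℝ) * (1 / 5)) ^ 1 :=
          pow_le_pow_of_le_one (by norm_num) (by norm_num) hn
      _ = 2 / 5 := by norm_num
  have h7 : (2 : ℝ) ^ n * (1 - 1 / 2 ^ k : ℝ) ^ (2 ^ (k + 2) * n) ≤ (2 : ℝ) ^ n * (1 / 5 : ℝ) ^ n :=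
    mul_le_mul_of_nonneg_left (le_trans h3 h5) (by positivity)
  linarith

/-- A sequence below which random `k`-SAT is satisfiable whp is eventually bounded. -/
lemma thr_bdd (k : ℕ) (r : ℕ → ℝ)
    (h1 : ∀ ε > 0, Tendsto (fun n : ℕ => satProb k n ⌊(r n - ε) * n⌋₊) atTop (𝓝 1)) :
    ∀ᶠ n in atTop, r n ≤ 2 ^ (k + 2) + 2 := by
  have hev := (h1 1 one_pos).eventually (lt_mem_nhds (by norm_num : (1 / 2 : ℝ) < 1))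
  filter_upwards [hev, eventually_ge_atTop (max k 1)] with n hn hkn
  have hk : k ≤ n := le_trans (le_max_left _ _) hkn
  have h1n : 1 ≤ n := le_trans (le_max_right _ _) hkn
  by_contra hcon
  rw [not_le] at hcon
  have hn1 : (1 : ℝ) ≤ n := by exact_mod_cast h1n
  have hm : 2 ^ (k + 2) * n ≤ ⌊(r n - 1) * n⌋₊ := by
    apply Nat.le_floor
    push_cast
    apply mul_le_mul_of_nonneg_right _ (by linarith)
    linarith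
  have := satProb_small hk h1n hm
  linarith

lemma gap_lemma {K : ℕ} (hK : K ≠ 0) {σ ε X : ℝ} (hσ : 0 < σ) (hσX : σ ≤ X) (hε : 0 < ε) :
    1 / (σ + ε) ^ K + ε ^ K / (X ^ K * (X + ε) ^ K) ≤ 1 / σ ^ K := by
  have h1 : σ ^ K + ε ^ K ≤ (σ + ε) ^ K := pow_add_pow_le hσ.le hε.le hK
  have hX : 0 < X := lt_of_lt_of_le hσ hσX
  have h2 : σ ^ K * (σ + ε) ^ K ≤ X ^ K * (X + ε) ^ K :=
    mul_le_mul (pow_le_pow_left₀ hσ.le hσX K) (pow_le_pow_left₀ (by linarith) (by linarith) K)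
      (by positivity) (by positivity)
  have h3 : ε ^ K / (X ^ K * (X + ε) ^ K) ≤ ε ^ K / (σ ^ K * (σ + ε) ^ K) :=
    div_le_div_of_nonneg_left (by positivity) (by positivity) h2
  have h4 : 1 / σ ^ K - 1 / (σ + ε) ^ K = ((σ + ε) ^ K - σ ^ K) / (σ ^ K * (σ + ε) ^ K) := by
    field_simp
  have h5 : ε ^ K / (σ ^ K * (σ + ε) ^ K) ≤ ((σ + ε) ^ K - σ ^ K) / (σ ^ K * (σ + ε) ^ K) :=
    div_le_div_of_nonneg_right (by linarith) (by positivity)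
  linarith

/-- The density bookkeeping. -/
lemma dens_lemma {r₀ δ ε' η ρ C₁ u rj : ℝ} (hδ : 0 < δ) (hρ : 0 < ρ) (hC₁ : 0 < C₁)
    (hη : η = ρ * δ / (8 * C₁)) (hε'δ : ε' ≤ δ / 4) (hε'η : ε' ≤ η)
    (hu : 1 / C₁ ≤ u) (hrj : ρ ≤ rj) (hr₀ : (r₀ + δ) * u ≤ 1) :
    (r₀ + δ / 2 + ε') * (u * rj) + ε' ≤ rj - η := by
  have hu0 : 0 < u := lt_of_lt_of_le (by positivity) hu
  have hrj0 : 0 < rj := lt_of_lt_of_le hρ hrj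
  have h1 : (r₀ + δ / 2 + ε') * u ≤ 1 - δ / 4 * u := by nlinarith
  have h2 : (r₀ + δ / 2 + ε') * (u * rj) ≤ (1 - δ / 4 * u) * rj := by
    rw [← mul_assoc]
    exact mul_le_mul_of_nonneg_right h1 hrj0.le
  have h3 : 2 * η ≤ δ / 4 * u * rj := by
    have e1 : 2 * η = δ / 4 * (1 / C₁) * ρ := by rw [hη]; field_simp; ring
    rw [e1]
    have : δ / 4 * (1 / C₁) ≤ δ / 4 * u := mul_le_mul_of_nonneg_left hu (by positivity)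
    exact mul_le_mul this hrj hρ.le (by positivity)
  nlinarith

/-- bounds for `s` from `s ^ K * r = 1` -/
lemma s_bounds {K : ℕ} (hK : K ≠ 0) {s r ρ C₀ : ℝ} (hρ : 0 < ρ) (hs : 0 < s) (hsr : s ^ K * r = 1)
    (hr : ρ ≤ r) (hrC : r ≤ C₀) : 1 / (1 + C₀) ≤ s ∧ s ≤ 1 + 1 / ρ := by
  have hr0 : 0 < r := lt_of_lt_of_le hρ hr
  have hC₀ : 0 < C₀ := lt_of_lt_of_le hr0 hrC
  have hsK : s ^ K = 1 / r := by field_simp; exact hsr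
  constructor
  · have hy0 : 0 ≤ 1 / (1 + C₀) := by positivity
    have hy1 : 1 / (1 + C₀) ≤ 1 := by
      rw [div_le_one (by linarith)]; linarith
    rw [← pow_le_pow_iff_left₀ hy0 hs.le hK]
    calc (1 / (1 + C₀)) ^ K ≤ (1 / (1 + C₀)) ^ 1 :=
          pow_le_pow_of_le_one hy0 hy1 (Nat.one_le_iff_ne_zero.mpr hK)
      _ = 1 / (1 + C₀) := pow_one _
      _ ≤ 1 / r := one_div_le_one_div_of_le hr0 (by linarith)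
      _ = s ^ K := hsK.symm
  · have hX1 : 1 ≤ 1 + 1 / ρ := by
      have : 0 ≤ 1 / ρ := by positivity
      linarith
    rw [← pow_le_pow_iff_left₀ hs.le (by linarith) hK]
    calc s ^ K = 1 / r := hsK
      _ ≤ 1 / ρ := one_div_le_one_div_of_le hρ hr
      _ ≤ (1 + 1 / ρ) ^ 1 := by rw [pow_one]; linarith
      _ ≤ (1 + 1 / ρ) ^ K := pow_le_pow_right₀ hX1 (Nat.one_le_iff_ne_zero.mpr hK)

/-- weighted averages stay between the bounds -/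
lemma avg_bounds {N₁ N₂ s₁ s₂ y X : ℝ} (hN₁ : 0 < N₁) (hN₂ : 0 < N₂) (hy₁ : y ≤ s₁) (hy₂ : y ≤ s₂)
    (hX₁ : s₁ ≤ X) (hX₂ : s₂ ≤ X) :
    y ≤ (N₁ * s₁ + N₂ * s₂) / (N₁ + N₂) ∧ (N₁ * s₁ + N₂ * s₂) / (N₁ + N₂) ≤ X := by
  have hn : 0 < N₁ + N₂ := by linarith
  constructor
  · rw [le_div_iff₀ hn]
    have h1 : N₁ * y ≤ N₁ * s₁ := mul_le_mul_of_nonneg_left hy₁ hN₁.le
    have h2 : N₂ * y ≤ N₂ * s₂ := mul_le_mul_of_nonneg_left hy₂ hN₂.le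
    linarith
  · rw [div_le_iff₀ hn]
    have h1 : N₁ * s₁ ≤ N₁ * X := mul_le_mul_of_nonneg_left hX₁ hN₁.le
    have h2 : N₂ * s₂ ≤ N₂ * X := mul_le_mul_of_nonneg_left hX₂ hN₂.le
    linarith

lemma ratio_pow {K : ℕ} {N s σ r : ℝ} (hN : 0 < N) (hs : 0 < s) (hσ : 0 < σ)
    (hsr : s ^ K * r = 1) : (N / (N * s / σ)) ^ K = σ ^ K * r := by
  have e : N / (N * s / σ) = σ / s := by field_simp
  rw [e, div_pow]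
  have : r = 1 / s ^ K := by field_simp; linarith
  rw [this]; ring

/-- The real-number part of the threshold argument. -/
lemma subadd_real {K : ℕ} (hK : K ≠ 0) {ρ C₀ ε δ η ε' : ℝ} (hρ : 0 < ρ) (hε : 0 < ε)
    (hδ : δ = ε ^ K / ((1 + 1 / ρ) ^ K * (1 + 1 / ρ + ε) ^ K))
    (hη : η = ρ * δ / (8 * (1 + C₀) ^ K)) (hε'δ : ε' ≤ δ / 4) (hε'η : ε' ≤ η)
    (N₁ N₂ : ℝ) (hN₁ : 0 < N₁) (hN₂ : 0 < N₂)
    (r₀ r₁ r₂ s₀ s₁ s₂ : ℝ) (hs₀ : 0 < s₀) (hs₁ : 0 < s₁) (hs₂ : 0 < s₂)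
    (hsr₀ : s₀ ^ K * r₀ = 1) (hsr₁ : s₁ ^ K * r₁ = 1) (hsr₂ : s₂ ^ K * r₂ = 1)
    (hr₁ : ρ ≤ r₁) (hr₂ : ρ ≤ r₂) (hr₁C : r₁ ≤ C₀) (hr₂C : r₂ ≤ C₀)
    (hcon : N₁ * s₁ + N₂ * s₂ + ε * (N₁ + N₂) < (N₁ + N₂) * s₀) :
    ∃ t₁ t₂ : ℝ, 0 < t₁ ∧ 0 < t₂ ∧ t₁ + t₂ = N₁ + N₂ ∧
      (r₀ + δ / 2 + ε') * (N₁ / t₁) ^ K + ε' ≤ r₁ - η ∧
      (r₀ + δ / 2 + ε') * (N₂ / t₂) ^ K + ε' ≤ r₂ - η := by
  have hnpos : 0 < N₁ + N₂ := by linarith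
  have hr₁0 : 0 < r₁ := lt_of_lt_of_le hρ hr₁
  have hC₀ : 0 < C₀ := lt_of_lt_of_le hr₁0 hr₁C
  obtain ⟨hy₁, hX₁⟩ := s_bounds hK hρ hs₁ hsr₁ hr₁ hr₁C
  obtain ⟨hy₂, hX₂⟩ := s_bounds hK hρ hs₂ hsr₂ hr₂ hr₂C
  obtain ⟨hσy, hσX⟩ := avg_bounds hN₁ hN₂ hy₁ hy₂ hX₁ hX₂
  set σ : ℝ := (N₁ * s₁ + N₂ * s₂) / (N₁ + N₂) with hσ
  have hy0 : 0 < 1 / (1 + C₀) := by positivity
  have hσpos : 0 < σ := lt_of_lt_of_le hy0 hσy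
  have hσn : σ * (N₁ + N₂) = N₁ * s₁ + N₂ * s₂ := by rw [hσ]; field_simp
  have hσs₀ : σ + ε < s₀ := by
    have : (σ + ε) * (N₁ + N₂) < s₀ * (N₁ + N₂) := by rw [add_mul, hσn]; linarith
    exact lt_of_mul_lt_mul_right this hnpos.le
  have hXpos : 0 < 1 + 1 / ρ := lt_of_lt_of_le hσpos hσX
  have hδpos : 0 < δ := by rw [hδ]; positivity
  have hgap := gap_lemma hK hσpos hσX hε
  rw [← hδ] at hgap
  have hr₀lt : r₀ ≤ 1 / (σ + ε) ^ K := by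
    have h1 : (σ + ε) ^ K ≤ s₀ ^ K := pow_le_pow_left₀ (by positivity) hσs₀.le K
    have h2 : r₀ = 1 / s₀ ^ K := by field_simp; linarith
    rw [h2]
    exact one_div_le_one_div_of_le (by positivity) h1
  have hr₀u : (r₀ + δ) * σ ^ K ≤ 1 := by
    have h1 : r₀ + δ ≤ 1 / σ ^ K := by linarith
    calc (r₀ + δ) * σ ^ K ≤ 1 / σ ^ K * σ ^ K := mul_le_mul_of_nonneg_right h1 (by positivity)
      _ = 1 := by field_simp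
  have hu : 1 / (1 + C₀) ^ K ≤ σ ^ K := by
    have : (1 / (1 + C₀)) ^ K ≤ σ ^ K := pow_le_pow_left₀ hy0.le hσy K
    rw [div_pow, one_pow] at this
    exact this
  have hC₁ : (0 : ℝ) < (1 + C₀) ^ K := by positivity
  have hd₁ := dens_lemma (r₀ := r₀) (ε' := ε') hδpos hρ hC₁ hη hε'δ hε'η hu hr₁ hr₀u
  have hd₂ := dens_lemma (r₀ := r₀) (ε' := ε') hδpos hρ hC₁ hη hε'δ hε'η hu hr₂ hr₀u
  refine ⟨N₁ * s₁ / σ, N₂ * s₂ / σ, by positivity, by positivity, ?_, ?_, ?_⟩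
  · rw [← add_div, ← hσn]; field_simp
  · rw [ratio_pow hN₁ hs₁ hσpos hsr₁]; exact hd₁
  · rw [ratio_pow hN₂ hs₂ hσpos hsr₂]; exact hd₂

/-- One application of the two-block inequality at the level of thresholds. -/
lemma subadd_step (k : ℕ) (hk : 2 ≤ k) {ρ C₀ ε δ η ε' : ℝ} (hρ : 0 < ρ) (hε : 0 < ε)
    (hδ : δ = ε ^ (k - 1) / ((1 + 1 / ρ) ^ (k - 1) * (1 + 1 / ρ + ε) ^ (k - 1)))
    (hη : η = ρ * δ / (8 * (1 + C₀) ^ (k - 1))) (hε'δ : ε' ≤ δ / 4) (hε'η : ε' ≤ η)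
    (hε'4 : ε' ≤ 1 / 4) (n₁ n₂ : ℕ) (hn₁ : 1 ≤ n₁) (hn₂ : 1 ≤ n₂)
    (r₀ r₁ r₂ s₀ s₁ s₂ : ℝ) (hs₀ : 0 < s₀) (hs₁ : 0 < s₁) (hs₂ : 0 < s₂)
    (hsr₀ : s₀ ^ (k - 1) * r₀ = 1) (hsr₁ : s₁ ^ (k - 1) * r₁ = 1) (hsr₂ : s₂ ^ (k - 1) * r₂ = 1)
    (hr₁ : ρ ≤ r₁) (hr₂ : ρ ≤ r₂) (hr₁C : r₁ ≤ C₀) (hr₂C : r₂ ≤ C₀)
    (hP₁ : 9 / 10 < satProb k n₁ ⌊(r₁ - η) * n₁⌋₊) (hP₂ : 9 / 10 < satProb k n₂ ⌊(r₂ - η) * n₂⌋₊)
    (hP₀ : satProb k (n₁ + n₂) ⌊(r₀ + δ / 2) * ((n₁ + n₂ : ℕ) : ℝ)⌋₊ < 1 / 2)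
    (hmain : ∀ t₁ t₂ : ℝ, 0 < t₁ → 0 < t₂ →
      t₁ + t₂ = (n₁ : ℝ) + n₂ → ∀ c c₁ c₂ : ℝ, 0 ≤ c → c₁ ≤ C₀ → c₂ ≤ C₀ →
      (c + ε') * ((n₁ : ℝ) / t₁) ^ (k - 1) + ε' ≤ c₁ →
      (c + ε') * ((n₂ : ℝ) / t₂) ^ (k - 1) + ε' ≤ c₂ →
      satProb k n₁ ⌊c₁ * n₁⌋₊ * satProb k n₂ ⌊c₂ * n₂⌋₊ - ε' ≤
        satProb k (n₁ + n₂) ⌊c * ((n₁ + n₂ : ℕ) : ℝ)⌋₊) :
    ((n₁ + n₂ : ℕ) : ℝ) * s₀ ≤ n₁ * s₁ + n₂ * s₂ + ε * ((n₁ + n₂ : ℕ) : ℝ) := by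
  by_contra hcon
  rw [not_le] at hcon
  have hK : k - 1 ≠ 0 := by omega
  have hn₁pos : (0 : ℝ) < n₁ := by exact_mod_cast hn₁
  have hn₂pos : (0 : ℝ) < n₂ := by exact_mod_cast hn₂
  have hcast : ((n₁ + n₂ : ℕ) : ℝ) = (n₁ : ℝ) + n₂ := by push_cast; ring
  have hr₁0 : 0 < r₁ := lt_of_lt_of_le hρ hr₁
  have hC₀ : 0 < C₀ := lt_of_lt_of_le hr₁0 hr₁C
  have hr₀0 : 0 < r₀ := by
    by_contra h
    rw [not_lt] at h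
    have : s₀ ^ (k - 1) * r₀ ≤ 0 := mul_nonpos_of_nonneg_of_nonpos (by positivity) h
    linarith
  have hXpos : 0 < 1 + 1 / ρ := by positivity
  have hδpos : 0 < δ := by rw [hδ]; positivity
  have hηpos : 0 < η := by rw [hη]; positivity
  rw [hcast] at hcon
  obtain ⟨t₁, t₂, ht₁, ht₂, ht, hd₁, hd₂⟩ := subadd_real hK hρ hε hδ hη hε'δ hε'η n₁ n₂ hn₁pos hn₂pos
    r₀ r₁ r₂ s₀ s₁ s₂ hs₀ hs₁ hs₂ hsr₀ hsr₁ hsr₂ hr₁ hr₂ hr₁C hr₂C hcon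
  have hres := hmain t₁ t₂ ht₁ ht₂ ht (r₀ + δ / 2) (r₁ - η) (r₂ - η) (by positivity)
    (by linarith) (by linarith) hd₁ hd₂
  have hP₁1 : (9 / 10 : ℝ) * (9 / 10) ≤
      satProb k n₁ ⌊(r₁ - η) * n₁⌋₊ * satProb k n₂ ⌊(r₂ - η) * n₂⌋₊ :=
    mul_le_mul hP₁.le hP₂.le (by norm_num) (by linarith)
  linarith

end Vale.Agent.Lib.P170
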