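import Vale.Agent.Lib.P170.Subadd

/-!
Approximate subadditivity for threshold sequences: final forms.
-/

namespace Vale.Agent.Lib.P170

open Finset Filter Topology

theorem subadd_nat (k : ℕ) (hk : 2 ≤ k) (r s : ℕ → ℝ) (ρ : ℝ) (hρ : 0 < ρ)
    (hr : ∀ᶠ n in atTop, ρ ≤ r n)
    (hs : ∀ᶠ n in atTop, 0 < s n ∧ (s n) ^ (k - 1) * r n = 1)
    (h1 : ∀ ε > 0, Tendsto (fun n : ℕ => satProb k n ⌊(r n - ε) * n⌋₊) atTop (𝓝 1))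
    (h0 : ∀ ε > 0, Tendsto (fun n : ℕ => satProb k n ⌊(r n + ε) * n⌋₊) atTop (𝓝 0)) :
    ∀ ε > 0, ∃ N : ℕ, ∀ n₁ n₂ : ℕ, N ≤ n₁ → N ≤ n₂ →
      ((n₁ + n₂ : ℕ) : ℝ) * s (n₁ + n₂) ≤ n₁ * s n₁ + n₂ * s n₂ + ε * ((n₁ + n₂ : ℕ) : ℝ) := by
  intro ε hε
  set C₀ : ℝ := 2 ^ (k + 2) + 2 with hC₀
  have hC₀pos : 0 < C₀ := by rw [hC₀]; positivity
  set δ : ℝ := ε ^ (k - 1) / ((1 + 1 / ρ) ^ (k - 1) * (1 + 1 / ρ + ε) ^ (k - 1)) with hδ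
  have hδpos : 0 < δ := by rw [hδ]; positivity
  set η : ℝ := ρ * δ / (8 * (1 + C₀) ^ (k - 1)) with hη
  have hηpos : 0 < η := by rw [hη]; positivity
  set ε' : ℝ := min (min (δ / 4) η) (1 / 4) with hε'
  have hε'pos : 0 < ε' := by
    rw [hε']
    exact lt_min (lt_min (by positivity) hηpos) (by norm_num)
  have hε'δ : ε' ≤ δ / 4 := le_trans (min_le_left _ _) (min_le_left _ _)
  have hε'η : ε' ≤ η := le_trans (min_le_left _ _) (min_le_right _ _)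
  have hε'4 : ε' ≤ 1 / 4 := min_le_right _ _
  obtain ⟨N₁, hN₁⟩ := main_density k hk C₀ ε' hC₀pos hε'pos
  have ev1 := (h1 η hηpos).eventually (lt_mem_nhds (by norm_num : (9 / 10 : ℝ) < 1))
  have ev0 := (h0 (δ / 2) (by positivity)).eventually (gt_mem_nhds (by norm_num : (0 : ℝ) < 1 / 2))
  have ev : ∀ᶠ n : ℕ in atTop, ρ ≤ r n ∧ r n ≤ C₀ ∧ (0 < s n ∧ (s n) ^ (k - 1) * r n = 1) ∧
      9 / 10 < satProb k n ⌊(r n - η) * n⌋₊ ∧ satProb k n ⌊(r n + δ / 2) * n⌋₊ < 1 / 2 := by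
    filter_upwards [hr, thr_bdd k r h1, hs, ev1, ev0] with n a b c d e
    exact ⟨a, b, c, d, e⟩
  obtain ⟨N₂, hN₂⟩ := eventually_atTop.1 ev
  refine ⟨max (max N₁ N₂) 1, ?_⟩
  intro n₁ n₂ hn₁ hn₂
  have a₁ : N₁ ≤ n₁ := le_trans (le_trans (le_max_left _ _) (le_max_left _ _)) hn₁
  have a₂ : N₁ ≤ n₂ := le_trans (le_trans (le_max_left _ _) (le_max_left _ _)) hn₂
  have b₁ : N₂ ≤ n₁ := le_trans (le_trans (le_max_right _ _) (le_max_left _ _)) hn₁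
  have b₂ : N₂ ≤ n₂ := le_trans (le_trans (le_max_right _ _) (le_max_left _ _)) hn₂
  have c₁ : 1 ≤ n₁ := le_trans (le_max_right _ _) hn₁
  have c₂ : 1 ≤ n₂ := le_trans (le_max_right _ _) hn₂
  obtain ⟨e1, e2, ⟨e3, e4⟩, e5, -⟩ := hN₂ n₁ b₁
  obtain ⟨f1, f2, ⟨f3, f4⟩, f5, -⟩ := hN₂ n₂ b₂
  obtain ⟨-, -, ⟨g3, g4⟩, -, g6⟩ := hN₂ (n₁ + n₂) (le_trans b₁ (Nat.le_add_right _ _))
  exact subadd_step k hk hρ hε hδ hη hε'δ hε'η hε'4 n₁ n₂ c₁ c₂ (r (n₁ + n₂)) (r n₁) (r n₂)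
    (s (n₁ + n₂)) (s n₁) (s n₂) g3 e3 f3 g4 e4 f4 e1 f1 e2 f2 e5 f5 g6 (hN₁ n₁ n₂ a₁ a₂)

theorem subadd_rpow (k : ℕ) (hk : 2 ≤ k) (r : ℕ → ℝ) (ρ : ℝ) (hρ : 0 < ρ)
    (hr : ∀ᶠ n in atTop, ρ ≤ r n)
    (h1 : ∀ ε > 0, Tendsto (fun n : ℕ => satProb k n ⌊(r n - ε) * n⌋₊) atTop (𝓝 1))
    (h0 : ∀ ε > 0, Tendsto (fun n : ℕ => satProb k n ⌊(r n + ε) * n⌋₊) atTop (𝓝 0)) :
    ∀ ε > 0, ∃ N : ℕ, ∀ n₁ n₂ : ℕ, N ≤ n₁ → N ≤ n₂ →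
      ((n₁ + n₂ : ℕ) : ℝ) * (r (n₁ + n₂)) ^ (-(1 / ((k : ℝ) - 1))) ≤
        n₁ * (r n₁) ^ (-(1 / ((k : ℝ) - 1))) + n₂ * (r n₂) ^ (-(1 / ((k : ℝ) - 1))) +
          ε * ((n₁ + n₂ : ℕ) : ℝ) := by
  apply subadd_nat k hk r (fun n => (r n) ^ (-(1 / ((k : ℝ) - 1)))) ρ hρ hr _ h1 h0
  filter_upwards [hr] with n hn
  have hrn : 0 < r n := lt_of_lt_of_le hρ hn
  refine ⟨Real.rpow_pos_of_pos hrn _, ?_⟩
  rw [← Real.rpow_natCast, ← Real.rpow_mul hrn.le]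
  have hk1 : ((k - 1 : ℕ) : ℝ) = (k : ℝ) - 1 := by
    rw [Nat.cast_sub (by omega)]; simp
  have hk2 : (k : ℝ) - 1 ≠ 0 := by
    have : (2 : ℝ) ≤ k := by exact_mod_cast hk
    intro h; linarith
  rw [hk1]
  have : -(1 / ((k : ℝ) - 1)) * ((k : ℝ) - 1) = -1 := by field_simp
  rw [this, Real.rpow_neg_one]
  field_simp

end Vale.Agent.Lib.P170
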