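import Vale.Agent.Lib.P170.Core2

/-!
Binomial weights: Chebyshev tail bounds.
-/

namespace Vale.Agent.Lib.P170

open Finset

lemma bin_nonneg {θ : ℝ} (h0 : 0 ≤ θ) (h1 : θ ≤ 1) (T j : ℕ) : 0 ≤ bin T θ j := by
  unfold bin
  have : 0 ≤ 1 - θ := by linarith
  positivity

lemma sum_bin (T : ℕ) (θ : ℝ) : ∑ j ∈ range (T + 1), bin T θ j = 1 := by
  have := add_pow θ (1 - θ) T
  rw [add_sub_cancel, one_pow] at this
  rw [this]
  refine Finset.sum_congr rfl fun j _ => ?_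
  unfold bin
  ring

lemma bin_variance (T : ℕ) (θ : ℝ) :
    ∑ j ∈ range (T + 1), bin T θ j * ((j : ℝ) - T * θ) ^ 2 = T * θ * (1 - θ) := by
  have := congrArg (Polynomial.eval θ) (bernsteinPolynomial.variance ℝ T)
  simp only [Polynomial.eval_finsetSum, bernsteinPolynomial, Polynomial.eval_mul,
    Polynomial.eval_pow, Polynomial.eval_sub, Polynomial.eval_X,
    Polynomial.eval_natCast, Polynomial.eval_one, nsmul_eq_mul] at this
  rw [← this]
  refine Finset.sum_congr rfl fun j _ => ?_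
  unfold bin
  ring

/-- Chebyshev. -/
lemma bin_tail {θ : ℝ} (h0 : 0 ≤ θ) (h1 : θ ≤ 1) (T : ℕ) {t : ℝ} (ht : 0 < t) :
    ∑ j ∈ (range (T + 1)).filter (fun j : ℕ => t ≤ |(j : ℝ) - T * θ|), bin T θ j ≤
      T * θ / t ^ 2 := by
  rw [le_div_iff₀ (by positivity)]
  calc (∑ j ∈ (range (T + 1)).filter (fun j : ℕ => t ≤ |(j : ℝ) - T * θ|), bin T θ j) * t ^ 2
      = ∑ j ∈ (range (T + 1)).filter (fun j : ℕ => t ≤ |(j : ℝ) - T * θ|), bin T θ j * t ^ 2 := by
        rw [Finset.sum_mul]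
    _ ≤ ∑ j ∈ (range (T + 1)).filter (fun j : ℕ => t ≤ |(j : ℝ) - T * θ|),
          bin T θ j * ((j : ℝ) - T * θ) ^ 2 := by
        apply Finset.sum_le_sum
        intro j hj
        rw [Finset.mem_filter] at hj
        apply mul_le_mul_of_nonneg_left _ (bin_nonneg h0 h1 T j)
        rw [← sq_abs ((j : ℝ) - T * θ)]
        exact pow_le_pow_left₀ ht.le hj.2 2
    _ ≤ ∑ j ∈ range (T + 1), bin T θ j * ((j : ℝ) - T * θ) ^ 2 := by
        apply Finset.sum_le_sum_of_subset_of_nonneg (Finset.filter_subset _ _)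
        intro j _ _
        exact mul_nonneg (bin_nonneg h0 h1 T j) (sq_nonneg _)
    _ = T * θ * (1 - θ) := bin_variance T θ
    _ ≤ T * θ := by
        have : 0 ≤ (T : ℝ) * θ := by positivity
        nlinarith

/-- Upper bound for a binomial average of an antitone `[0,1]`-valued sequence. -/
lemma bin_avg_le {θ : ℝ} (h0 : 0 ≤ θ) (h1 : θ ≤ 1) (T : ℕ) {P : ℕ → ℝ} (hP : Antitone P)
    (hP1 : ∀ j, P j ≤ 1) (hP0 : ∀ j, 0 ≤ P j) (m : ℕ) {t : ℝ} (ht : 0 < t)
    (hm : (m : ℝ) + t ≤ T * θ) :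
    ∑ j ∈ range (T + 1), bin T θ j * P j ≤ P m + T * θ / t ^ 2 := by
  classical
  have hsplit := Finset.sum_filter_add_sum_filter_not (range (T + 1))
    (fun j : ℕ => t ≤ |(j : ℝ) - T * θ|) (fun j => bin T θ j * P j)
  rw [← hsplit]
  have hA : ∑ j ∈ (range (T + 1)).filter (fun j : ℕ => t ≤ |(j : ℝ) - T * θ|), bin T θ j * P j ≤
      T * θ / t ^ 2 := by
    refine le_trans (Finset.sum_le_sum fun j _ => ?_) (bin_tail h0 h1 T ht)
    have := bin_nonneg h0 h1 T j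
    nlinarith [hP1 j]
  have hB : ∑ j ∈ (range (T + 1)).filter (fun j : ℕ => ¬ t ≤ |(j : ℝ) - T * θ|), bin T θ j * P j ≤
      P m := by
    calc _ ≤ ∑ j ∈ (range (T + 1)).filter (fun j : ℕ => ¬ t ≤ |(j : ℝ) - T * θ|),
          bin T θ j * P m := by
          apply Finset.sum_le_sum
          intro j hj
          rw [Finset.mem_filter, not_le, abs_lt] at hj
          apply mul_le_mul_of_nonneg_left _ (bin_nonneg h0 h1 T j)
          apply hP
          have : (m : ℝ) < j := by linarith [hj.2.1]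
          exact_mod_cast this.le
      _ ≤ ∑ j ∈ range (T + 1), bin T θ j * P m := by
          apply Finset.sum_le_sum_of_subset_of_nonneg (Finset.filter_subset _ _)
          intro j _ _
          exact mul_nonneg (bin_nonneg h0 h1 T j) (hP0 m)
      _ = P m := by rw [← Finset.sum_mul, sum_bin, one_mul]
  linarith

/-- Lower bound for a binomial average of an antitone `[0,1]`-valued sequence. -/
lemma le_bin_avg {θ : ℝ} (h0 : 0 ≤ θ) (h1 : θ ≤ 1) (T : ℕ) {P : ℕ → ℝ} (hP : Antitone P)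
    (hP1 : ∀ j, P j ≤ 1) (hP0 : ∀ j, 0 ≤ P j) (m : ℕ) {t : ℝ} (ht : 0 < t)
    (hm : T * θ + t ≤ (m : ℝ)) :
    P m - T * θ / t ^ 2 ≤ ∑ j ∈ range (T + 1), bin T θ j * P j := by
  classical
  have hsplit := Finset.sum_filter_add_sum_filter_not (range (T + 1))
    (fun j : ℕ => t ≤ |(j : ℝ) - T * θ|) (fun j => bin T θ j * P j)
  have hsplit1 := Finset.sum_filter_add_sum_filter_not (range (T + 1))
    (fun j : ℕ => t ≤ |(j : ℝ) - T * θ|) (fun j => bin T θ j)
  rw [sum_bin] at hsplit1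
  rw [← hsplit]
  have hA : 0 ≤ ∑ j ∈ (range (T + 1)).filter (fun j : ℕ => t ≤ |(j : ℝ) - T * θ|),
      bin T θ j * P j :=
    Finset.sum_nonneg fun j _ => mul_nonneg (bin_nonneg h0 h1 T j) (hP0 j)
  have hB : (∑ j ∈ (range (T + 1)).filter (fun j : ℕ => ¬ t ≤ |(j : ℝ) - T * θ|), bin T θ j) * P m ≤
      ∑ j ∈ (range (T + 1)).filter (fun j : ℕ => ¬ t ≤ |(j : ℝ) - T * θ|), bin T θ j * P j := by
    rw [Finset.sum_mul]
    apply Finset.sum_le_sum
    intro j hj
    rw [Finset.mem_filter, not_le, abs_lt] at hj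
    apply mul_le_mul_of_nonneg_left _ (bin_nonneg h0 h1 T j)
    apply hP
    have : (j : ℝ) < m := by linarith [hj.2.2]
    exact_mod_cast this.le
  have hT := bin_tail h0 h1 T ht
  have hT0 : 0 ≤ ∑ j ∈ (range (T + 1)).filter (fun j : ℕ => t ≤ |(j : ℝ) - T * θ|), bin T θ j :=
    Finset.sum_nonneg fun j _ => bin_nonneg h0 h1 T j
  nlinarith [hP1 m, hP0 m]

end Vale.Agent.Lib.P170
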